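import Vale.Agent.P030.H905.FlagOf
import Vale.Agent.P030.H265.Thin

/-!
# P030, route N: the determinant bound from the wall data (helper265), with the norm of the sharp
closed cells

`sharpN G W s z` : maximum over the cells `i` with `z ∈ T.reg g 0 i` of the cell norms with the
weights `s * W b`;  `nodes_bound` : condition (C) on the walls gives, for every `ε > 0`, all large
`s`, all points and all vectors `|det| ≤ exp (-(E0 - ε) s²) ∏ sharpN`.
-/

open Matrix Finset MeasureTheory Filter Topology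

namespace Vale.Agent.P030.H905

open Vale.Agent.P030.H352 (Energy Flag adet ptM theoremN)
open Vale.Agent.P030.H152 (Cells PU Hyp cellN cellN_le coord_le_cellN)
open Vale.Agent.P030.H3 (SCirc energy_N3)
open Vale.Agent.P030.H265 (WallData reg_cover)

section cells

variable {m : ℕ} {κ : Type} [Fintype κ] {w : Fin m → ℂ → ℝ} {C : ℝ}

/-- the glued norm is bounded by the norm of any cell which contains the point -/
theorem N_le_cellN (G : Cells m κ w C) (hC : 0 ≤ C) {k : κ} {z : ℂ} (hz : z ∈ G.O k)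
    (v : Fin m → ℂ) : G.N z v ≤ m * C * cellN (G.S k z) (fun b => w b z) v := by
  set y : Fin m → ℂ := v ᵥ* (G.S k z)⁻¹ with hy
  have hv : v = y ᵥ* G.S k z := by
    rw [hy, Matrix.vecMul_vecMul, Matrix.nonsing_inv_mul _ (G.uni k z hz).isUnit,
      Matrix.vecMul_one]
  have h0 : 0 ≤ cellN (G.S k z) (fun b => w b z) v := apply_nonneg _ _
  refine G.N_le (by positivity) fun k' hk' => cellN_le _ _ _ (by positivity) fun c => ?_
  have h1 : (v ᵥ* (G.S k' z)⁻¹) c = ∑ b, y b * (G.S k z b ᵥ* (G.S k' z)⁻¹) c := by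
    conv_lhs => rw [hv, Matrix.vecMul_vecMul]
    simp only [Matrix.vecMul, dotProduct, Matrix.mul_apply]
  rw [h1]
  have h2 : ‖∑ b, y b * (G.S k z b ᵥ* (G.S k' z)⁻¹) c‖ * Real.exp (w c z) ≤
      ∑ b, ‖y b‖ * (‖(G.S k z b ᵥ* (G.S k' z)⁻¹) c‖ * Real.exp (w c z)) := by
    rw [← Finset.sum_congr rfl fun b _ => mul_assoc _ _ _, ← Finset.sum_mul]
    refine mul_le_mul_of_nonneg_right ?_ (Real.exp_pos _).le
    refine (norm_sum_le _ _).trans (le_of_eq ?_)
    exact Finset.sum_congr rfl fun b _ => norm_mul _ _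
  refine h2.trans ?_
  have h3 : ∀ b ∈ (Finset.univ : Finset (Fin m)),
      ‖y b‖ * (‖(G.S k z b ᵥ* (G.S k' z)⁻¹) c‖ * Real.exp (w c z)) ≤
        C * cellN (G.S k z) (fun b => w b z) v := by
    intro b _
    have h4 := coord_le_cellN (G.S k z) (fun b => w b z) v b
    rw [← hy] at h4
    calc ‖y b‖ * (‖(G.S k z b ᵥ* (G.S k' z)⁻¹) c‖ * Real.exp (w c z))
        ≤ ‖y b‖ * (C * Real.exp (w b z)) :=
          mul_le_mul_of_nonneg_left (G.tr k k' z hz hk' b c) (norm_nonneg _)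
      _ = C * (‖y b‖ * Real.exp (w b z)) := by ring
      _ ≤ _ := mul_le_mul_of_nonneg_left h4 hC
  refine (Finset.sum_le_sum h3).trans (le_of_eq ?_)
  rw [Finset.sum_const, Finset.card_univ, Fintype.card_fin, nsmul_eq_mul]
  ring

end cells

section main

variable {m : ℕ} {κ ι : Type} [DecidableEq ι] [Fintype ι] [Fintype κ] (G : WallData κ ι m)

open Classical in
/-- the norm of the sharp closed cells -/
noncomputable def sharpN (W : Fin m → ℂ → ℝ) (s : ℝ) (z : ℂ) : Seminorm ℂ (Fin m → ℂ) :=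
  Finset.univ.sup fun i => if z ∈ G.T.reg G.g 0 i then cellN (G.S i z) (fun b => s * W b z) else 0

theorem cellN_le_sharpN {W : Fin m → ℂ → ℝ} {s : ℝ} {i : ι} {z : ℂ} (hz : z ∈ G.T.reg G.g 0 i)
    (v : Fin m → ℂ) : cellN (G.S i z) (fun b => s * W b z) v ≤ sharpN G W s z v := by
  classical
  unfold sharpN
  refine le_trans (le_of_eq ?_) (Seminorm.le_finset_sup_apply (Finset.mem_univ i))
  rw [if_pos hz]

theorem sharpN_le {W : Fin m → ℂ → ℝ} {s : ℝ} {z : ℂ} {v : Fin m → ℂ} {B : ℝ} (hB : 0 ≤ B)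
    (h : ∀ i, z ∈ G.T.reg G.g 0 i → cellN (G.S i z) (fun b => s * W b z) v ≤ B) :
    sharpN G W s z v ≤ B := by
  classical
  unfold sharpN
  refine Seminorm.finset_sup_apply_le hB fun i _ => ?_
  split_ifs with hi
  · exact h i hi
  · simpa using hB

variable {κc : Fin m → Type} [∀ b, Fintype (κc b)]

theorem continuous_Wt (D0 : Fin m → ℕ) (μ : ∀ b, SCirc (κc b)) (γ : Fin m → ℝ) (b : Fin m) :
    Continuous (Wt D0 μ γ b) := by
  unfold Wt
  exact (continuous_const.mul (μ b).continuous_U).add continuous_const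

/-- **route N**: the determinant bound from the wall data -/
theorem nodes_bound (D0 : Fin m → ℕ) (hD0 : ∀ b c, b ≤ c → D0 c ≤ D0 b) (μ : ∀ b, SCirc (κc b))
    (γ : Fin m → ℝ) (hC : G.Cond (Wt D0 μ γ)) {ε : ℝ} (hε : 0 < ε) :
    ∀ᶠ s : ℕ in atTop, ∀ (τ : Type) [Fintype τ] [DecidableEq τ],
      Fintype.card τ = Fintype.card (Σ b : Fin m, Fin (D0 b * s)) →
      ∀ (a : τ → ℂ) (v : τ → Fin m → ℂ),
        adet (ptM (fun b => D0 b * s) a v) ≤
          Real.exp (-(E0 D0 μ γ - ε) * (s : ℝ) ^ 2) *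
            ∏ i, sharpN G (Wt D0 μ γ) s (a i) (v i) := by
  set D : ℕ := ∑ b, D0 b with hDdef
  have hDr : ((D : ℕ) : ℝ) = ∑ b, (D0 b : ℝ) := by rw [hDdef]; push_cast; rfl
  set η : ℝ := ε / (4 * (2 * m * D + D + 1)) with hη
  have hden : (0 : ℝ) < 4 * (2 * m * D + D + 1) := by positivity
  have hη0 : 0 < η := by positivity
  have hη1 : (2 * m * D + D + 1) * η = ε / 4 := by
    rw [hη]
    field_simp
  obtain ⟨O, C0, C1, δ0, hC0, hC1, hδ0, hδ1, hQ, hOU, hreg, hPU⟩ :=
    G.exists_cells (continuous_Wt D0 μ γ) hC hη0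
  have hC00 : 0 ≤ C0 := by linarith
  have h2m : 2 * (m : ℝ) * (∑ b, (D0 b : ℝ)) * η < ε / 2 := by
    rw [← hDr]
    have : 0 ≤ ((D : ℝ) + 1) * η := by positivity
    nlinarith
  have hmain := det_bound_of_cells D0 hD0 μ γ G.S G.lim hη0.le hC00 hC1.le hδ0 O hPU h2m
  set c : ℝ := Real.log (m * C0 + 1) with hc
  have hc0 : 0 ≤ c := Real.log_nonneg (by have : 0 ≤ (m : ℝ) * C0 := by positivity
                                          linarith)
  have hlin := small (D * c) le_rfl 0 (show (0 : ℝ) < ε / 8 by positivity)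
  filter_upwards [hmain, hlin] with s hs hls τ _ _ hτ a v
  obtain ⟨Q, hQO, hQS⟩ := hQ s (Nat.cast_nonneg s)
  have h1 := hs Q hQO hQS τ hτ a v
  refine h1.trans ?_
  have hs0 : (0 : ℝ) ≤ s := Nat.cast_nonneg s
  have hcard : Fintype.card (Σ b : Fin m, Fin (D0 b * s)) = D * s := by
    rw [Fintype.card_sigma, hDdef, Finset.sum_mul]
    simp
  have hfac : ∀ i ∈ (Finset.univ : Finset τ), Q.N (a i) (v i) ≤
      Real.exp (c + η * s) * sharpN G (Wt D0 μ γ) s (a i) (v i) := by
    intro i _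
    obtain ⟨k, hk⟩ := reg_cover G.g G.T (a i)
    have h2 := N_le_cellN Q (by positivity) (k := k) (z := a i) (by rw [hQO]; exact hreg k hk) (v i)
    rw [hQS] at h2
    have h3 := cellN_le_sharpN G (W := Wt D0 μ γ) (s := s) hk (v i)
    have h4 : 0 ≤ sharpN G (Wt D0 μ γ) s (a i) (v i) := apply_nonneg _ _
    have h5 : (m : ℝ) * (C0 * Real.exp (η * s)) ≤ Real.exp (c + η * s) := by
      rw [Real.exp_add, hc, Real.exp_log (by positivity)]
      have := Real.exp_pos (η * s)
      nlinarith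
    exact h2.trans (mul_le_mul h5 h3 (apply_nonneg _ _) (Real.exp_pos _).le)
  have hprod : ∏ i, Q.N (a i) (v i) ≤
      Real.exp ((D * s : ℕ) * (c + η * s)) * ∏ i, sharpN G (Wt D0 μ γ) s (a i) (v i) := by
    refine (Finset.prod_le_prod (fun i _ => apply_nonneg _ _) hfac).trans (le_of_eq ?_)
    rw [Finset.prod_mul_distrib, Finset.prod_const, Finset.card_univ, hτ, hcard,
      ← Real.exp_nat_mul]
  have hP0 : 0 ≤ ∏ i, sharpN G (Wt D0 μ γ) s (a i) (v i) :=
    Finset.prod_nonneg fun i _ => apply_nonneg _ _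
  calc Real.exp (-(E0 D0 μ γ - ε / 2) * (s : ℝ) ^ 2) * ∏ i, Q.N (a i) (v i)
      ≤ Real.exp (-(E0 D0 μ γ - ε / 2) * (s : ℝ) ^ 2) *
        (Real.exp ((D * s : ℕ) * (c + η * s)) * ∏ i, sharpN G (Wt D0 μ γ) s (a i) (v i)) :=
        mul_le_mul_of_nonneg_left hprod (Real.exp_pos _).le
    _ = Real.exp (-(E0 D0 μ γ - ε / 2) * (s : ℝ) ^ 2 + (D * s : ℕ) * (c + η * s)) *
        ∏ i, sharpN G (Wt D0 μ γ) s (a i) (v i) := by rw [Real.exp_add]; ring
    _ ≤ _ := by
        refine mul_le_mul_of_nonneg_right (Real.exp_le_exp.2 ?_) hP0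
        have h6 : (s : ℝ) * (D * c) ≤ ε / 8 * (s : ℝ) ^ 2 := by
          have := hls
          simp only [zero_mul, add_zero] at this
          exact this
        have h7 : (D : ℝ) * η ≤ ε / 4 := by
          have : 0 ≤ (2 * (m : ℝ) * D + 1) * η := by positivity
          nlinarith
        have h8 : (D : ℝ) * η * (s : ℝ) ^ 2 ≤ ε / 4 * (s : ℝ) ^ 2 :=
          mul_le_mul_of_nonneg_right h7 (by positivity)
        have h9 : ((D * s : ℕ) : ℝ) * (c + η * s) = (s : ℝ) * (D * c) + D * η * (s : ℝ) ^ 2 := by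
          push_cast
          ring
        rw [h9]
        have h10 : 0 ≤ ε / 8 * (s : ℝ) ^ 2 := by positivity
        nlinarith

end main

end Vale.Agent.P030.H905
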