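import Vale.Agent.P030.H905.NormOf

/-!
# P030, route N: the determinant bound for general potentials

`Pot` : a continuous function `U` with a number `En` which satisfy the inequality between
Vandermonde determinants of helper3 up to an error `ε d K`.
`Pot.ofSCirc` : signed circle measures;  `Pot.ofApprox` : uniform limits.
`nodes_boundP` : `nodes_bound` with `Pot` in place of `SCirc`.
-/

open Matrix Finset MeasureTheory Filter Topology

namespace Vale.Agent.P030.H905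

open Vale.Agent.P030.H352 (Energy Flag adet ptM theoremN)
open Vale.Agent.P030.H152 (Cells PU Hyp cellN cellN_le coord_le_cellN)
open Vale.Agent.P030.H3 (SCirc energy_N3)
open Vale.Agent.P030.H265 (WallData reg_cover)

/-- the inequality of a potential with error constants `Wc`, `ε` -/
def N3 (U : ℂ → ℝ) (En Wc ε : ℝ) : Prop :=
  ∀ (γ : ℝ) (d K : ℕ) (δ : ℝ), 0 < δ → δ ≤ 2 → ∀ p : ℕ, p + d ≤ K →
    ∀ (a : Fin (p + d) → ℂ) (x : Fin p → ℂ), (∀ i j, δ ≤ ‖x i - a j‖) →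
    ‖(Matrix.vandermonde a).det‖ * ‖(Matrix.vandermonde x).det‖ ≤
      Real.exp (∑ i, (d * U (a i) + γ) - ∑ j, (d * U (x j) + γ) -
        (d * γ + (d : ℝ) ^ 2 * En / 2 - K * (d * Wc * δ - Real.log (δ / 2)) - ε * d * K)) *
      ∏ i, ∏ j, ‖x i - a j‖

/-- a potential with an energy -/
structure Pot where
  /-- the potential -/
  U : ℂ → ℝ
  cont : Continuous U
  /-- the energy -/
  En : ℝ
  n3 : ∀ ε : ℝ, 0 < ε → ∃ Wc : ℝ, 0 ≤ Wc ∧ N3 U En Wc ε

namespace Pot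

/-- signed circle measures -/
noncomputable def ofSCirc {κ : Type*} [Fintype κ] (μ : SCirc κ) : Pot where
  U := μ.U
  cont := μ.continuous_U
  En := μ.En
  n3 := by
    intro ε hε
    refine ⟨μ.Wc, μ.Wc_nonneg, ?_⟩
    intro γ d K δ hδ hδ2 p hp a x hsep
    refine (energy_N3 μ γ d K hδ hδ2 p hp a x hsep).trans ?_
    refine mul_le_mul_of_nonneg_right (Real.exp_le_exp.2 ?_)
      (Finset.prod_nonneg fun i _ => Finset.prod_nonneg fun j _ => norm_nonneg _)
    have : 0 ≤ ε * d * K := by positivity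
    linarith

theorem _root_.Vale.Agent.P030.H905.N3.approx {U U' : ℂ → ℝ} {En En' Wc ε e : ℝ}
    (h : N3 U' En' Wc ε) (hU : ∀ z, |U' z - U z| ≤ e) (hEn : En - e ≤ En') (he : 0 ≤ e) :
    N3 U En Wc (ε + 3 * e) := by
  intro γ d K δ hδ hδ2 p hp a x hsep
  refine (h γ d K δ hδ hδ2 p hp a x hsep).trans ?_
  refine mul_le_mul_of_nonneg_right (Real.exp_le_exp.2 ?_)
    (Finset.prod_nonneg fun i _ => Finset.prod_nonneg fun j _ => norm_nonneg _)
  have hK : ((p : ℝ) + d) ≤ K := by exact_mod_cast hp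
  have hd : (0 : ℝ) ≤ d := Nat.cast_nonneg d
  have hp0 : (0 : ℝ) ≤ p := Nat.cast_nonneg p
  have h1 : ∑ i, ((d : ℝ) * U' (a i) + γ) ≤ ∑ i, ((d : ℝ) * U (a i) + γ) + K * (d * e) := by
    have h2 : ∑ i, ((d : ℝ) * U' (a i) + γ) ≤ ∑ i, (((d : ℝ) * U (a i) + γ) + d * e) := by
      refine Finset.sum_le_sum fun i _ => ?_
      have := (abs_le.1 (hU (a i))).2
      nlinarith
    refine h2.trans ?_
    rw [Finset.sum_add_distrib, Finset.sum_const, Finset.card_univ, Fintype.card_fin,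
      nsmul_eq_mul]
    have : ((p + d : ℕ) : ℝ) * (d * e) ≤ K * (d * e) :=
      mul_le_mul_of_nonneg_right (by exact_mod_cast hp) (by positivity)
    linarith
  have h2 : ∑ j, ((d : ℝ) * U (x j) + γ) ≤ ∑ j, ((d : ℝ) * U' (x j) + γ) + K * (d * e) := by
    have h2 : ∑ i, ((d : ℝ) * U (x i) + γ) ≤ ∑ i, (((d : ℝ) * U' (x i) + γ) + d * e) := by
      refine Finset.sum_le_sum fun i _ => ?_
      have := (abs_le.1 (hU (x i))).1
      nlinarith
    refine h2.trans ?_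
    rw [Finset.sum_add_distrib, Finset.sum_const, Finset.card_univ, Fintype.card_fin,
      nsmul_eq_mul]
    have : (p : ℝ) * (d * e) ≤ K * (d * e) :=
      mul_le_mul_of_nonneg_right (by linarith) (by positivity)
    linarith
  have h3 : (d : ℝ) ^ 2 * En / 2 ≤ (d : ℝ) ^ 2 * En' / 2 + K * (d * e) := by
    have h4 : (d : ℝ) ^ 2 * (En - e) ≤ (d : ℝ) ^ 2 * En' :=
      mul_le_mul_of_nonneg_left hEn (sq_nonneg _)
    have h5 : (d : ℝ) ^ 2 * e ≤ 2 * (K * (d * e)) := by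
      have h6 : (d : ℝ) * (d * e) ≤ K * (d * e) :=
        mul_le_mul_of_nonneg_right (by linarith) (by positivity)
      have h7 : 0 ≤ (K : ℝ) * (d * e) := by positivity
      nlinarith
    nlinarith
  linarith

/-- uniform limits -/
noncomputable def ofApprox (U : ℂ → ℝ) (cont : Continuous U) (En : ℝ)
    (h : ∀ ε : ℝ, 0 < ε → ∃ P : Pot, (∀ z, |P.U z - U z| ≤ ε) ∧ En - ε ≤ P.En) : Pot where
  U := U
  cont := cont
  En := En
  n3 := by
    intro ε hε
    obtain ⟨P, hP, hE⟩ := h (ε / 6) (by positivity)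
    obtain ⟨Wc, h0, h1⟩ := P.n3 (ε / 2) (by positivity)
    refine ⟨Wc, h0, ?_⟩
    have h2 := h1.approx hP hE (by positivity)
    have e1 : ε / 2 + 3 * (ε / 6) = ε := by ring
    rwa [e1] at h2

/-- a smaller energy -/
noncomputable def weaken (P : Pot) {En : ℝ} (h : En ≤ P.En) : Pot :=
  ofApprox P.U P.cont En fun ε hε => ⟨P, fun z => by simp [hε.le], by linarith⟩

end Pot

variable {m : ℕ}

/-- the weight functions for `s = 1` -/
noncomputable def WtP (D0 : Fin m → ℕ) (μ : Fin m → Pot) (γ : Fin m → ℝ) (b : Fin m)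
    (z : ℂ) : ℝ := (D0 b : ℝ) * (μ b).U z + γ b

/-- the energy of the data -/
noncomputable def E0P (D0 : Fin m → ℕ) (μ : Fin m → Pot) (γ : Fin m → ℝ) : ℝ :=
  ∑ b, ((D0 b : ℝ) * γ b + (D0 b : ℝ) ^ 2 * (μ b).En / 2)

/-- the error of the energy at level `b` -/
noncomputable def errP (D0 : Fin m → ℕ) (Wc : Fin m → ℝ) (s K : ℕ) (δ e : ℝ)
    (b : Fin m) : ℝ :=
  (K : ℝ) * (((D0 b * s : ℕ) : ℝ) * Wc b * δ - Real.log (δ / 2)) + e * ((D0 b * s : ℕ) : ℝ) * K

theorem energy_sP (D0 : Fin m → ℕ) (μ : Fin m → Pot) (γ : Fin m → ℝ) (s K : ℕ)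
    {Wc : Fin m → ℝ} {e : ℝ} (hN : ∀ b, N3 (μ b).U (μ b).En (Wc b) e) {δ : ℝ}
    (hδ : 0 < δ) (hδ2 : δ ≤ 2) (b : Fin m) :
    Energy (fun z => (s : ℝ) * WtP D0 μ γ b z) (D0 b * s)
      ((s : ℝ) ^ 2 * ((D0 b : ℝ) * γ b + (D0 b : ℝ) ^ 2 * (μ b).En / 2) - errP D0 Wc s K δ e b)
      K δ := by
  intro p hp a x hsep
  have h := hN b ((s : ℝ) * γ b) (D0 b * s) K δ hδ hδ2 p hp a x hsep
  refine h.trans (le_of_eq ?_)
  congr 2
  have e1 : ∀ z, ((D0 b * s : ℕ) : ℝ) * (μ b).U z + (s : ℝ) * γ b =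
      (s : ℝ) * WtP D0 μ γ b z := by
    intro z
    unfold WtP
    push_cast
    ring
  simp only [e1]
  unfold errP
  push_cast
  ring

/-- the logarithm of the basic constant -/
theorem logB_le {n C0 C1 C' P K η s M : ℝ} (hn : 0 ≤ n) (hC0 : 0 ≤ C0) (hC1 : 0 ≤ C1)
    (hη : 0 ≤ η) (hK : 0 ≤ K) (hs : 0 ≤ s) (hM1 : 1 ≤ M)
    (hP : P = 1 + C0 + n * C1 * C0)
    (hC' : C' = max (C0 * Real.exp (η * s)) (n * (C1 * (K + 1)) * (C0 * Real.exp (η * s)))) :
    Real.log (2 * (1 + C') ^ 2 * M) ≤ Real.log (2 * M) + 2 * Real.log P +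
      2 * Real.log (K + 1) + 2 * (η * s) := by
  have hP1 : 1 ≤ P := by
    have : 0 ≤ n * C1 * C0 := by positivity
    linarith
  have hexp1 : 1 ≤ Real.exp (η * s) := Real.one_le_exp (by positivity)
  have hC'0 : 0 ≤ C' := by rw [hC']; exact le_max_of_le_left (by positivity)
  have hC'le : 1 + C' ≤ P * (K + 1) * Real.exp (η * s) := by
    have h2 : C' ≤ C0 * Real.exp (η * s) + n * (C1 * (K + 1)) * (C0 * Real.exp (η * s)) := by
      rw [hC']
      have h21 : 0 ≤ C0 * Real.exp (η * s) := by positivity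
      have h22 : 0 ≤ n * (C1 * (K + 1)) * (C0 * Real.exp (η * s)) := by positivity
      exact max_le (le_add_of_nonneg_right h22) (le_add_of_nonneg_left h21)
    have hK1 : (1 : ℝ) ≤ K + 1 := by linarith
    have h3 : (1 : ℝ) ≤ (K + 1) * Real.exp (η * s) := one_le_mul_of_one_le_of_one_le hK1 hexp1
    have h4 : C0 * Real.exp (η * s) ≤ C0 * ((K + 1) * Real.exp (η * s)) := by
      refine mul_le_mul_of_nonneg_left ?_ hC0
      exact le_mul_of_one_le_left (Real.exp_pos _).le hK1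
    calc 1 + C' ≤ 1 + (C0 * Real.exp (η * s) +
          n * (C1 * (K + 1)) * (C0 * Real.exp (η * s))) := by linarith
      _ ≤ (K + 1) * Real.exp (η * s) + (C0 * ((K + 1) * Real.exp (η * s)) +
          n * (C1 * (K + 1)) * (C0 * Real.exp (η * s))) :=
          add_le_add h3 (add_le_add h4 le_rfl)
      _ = P * (K + 1) * Real.exp (η * s) := by rw [hP]; ring
  have h2 : 2 * (1 + C') ^ 2 * M ≤ 2 * M * (P * (K + 1) * Real.exp (η * s)) ^ 2 := by
    have h3 : (1 + C') ^ 2 ≤ (P * (K + 1) * Real.exp (η * s)) ^ 2 :=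
      pow_le_pow_left₀ (by linarith) hC'le 2
    calc 2 * (1 + C') ^ 2 * M = 2 * M * (1 + C') ^ 2 := by ring
      _ ≤ 2 * M * (P * (K + 1) * Real.exp (η * s)) ^ 2 :=
        mul_le_mul_of_nonneg_left h3 (by linarith)
  refine (Real.log_le_log (by positivity) h2).trans (le_of_eq ?_)
  have hP0 : P ≠ 0 := by linarith
  have hK0 : K + 1 ≠ 0 := by linarith
  have h4 : Real.log (P * (K + 1) * Real.exp (η * s)) =
      Real.log P + Real.log (K + 1) + η * s := by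
    rw [Real.log_mul (mul_ne_zero hP0 hK0) (Real.exp_pos _).ne', Real.log_mul hP0 hK0,
      Real.log_exp]
  have h5 : (P * (K + 1) * Real.exp (η * s)) ^ 2 ≠ 0 :=
    pow_ne_zero _ (mul_ne_zero (mul_ne_zero hP0 hK0) (Real.exp_pos _).ne')
  rw [Real.log_mul (by linarith) h5, Real.log_pow, h4]
  push_cast
  ring

/-- the sum of the errors -/
theorem sum_errP_le (D0 : Fin m → ℕ) {Wc : Fin m → ℝ} (hWc : ∀ b, 0 ≤ Wc b) (s : ℕ)
    {δ1 e1 : ℝ} (hδ1 : 0 < δ1) :
    ∑ b, errP D0 Wc s ((∑ b, D0 b) * s) (δ1 / ((((∑ b, D0 b) * s : ℕ) : ℝ) + 1)) e1 b ≤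
      s * (∑ b, (D0 b : ℝ) * Wc b * δ1) + m * ((((∑ b, D0 b) * s : ℕ) : ℝ) *
        (Real.log (2 / δ1) + Real.log ((((∑ b, D0 b) * s : ℕ) : ℝ) + 1))) +
        e1 * (((∑ b, D0 b : ℕ) : ℝ)) ^ 2 * (s : ℝ) ^ 2 := by
  set D : ℕ := ∑ b, D0 b with hDdef
  have hDr : ((D : ℕ) : ℝ) = ∑ b, (D0 b : ℝ) := by rw [hDdef]; push_cast; rfl
  set K : ℕ := D * s with hKdef
  have hK0 : (0 : ℝ) < (K : ℝ) + 1 := by positivity
  set δ : ℝ := δ1 / (K + 1) with hδdef
  have hδ : 0 < δ := by positivity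
  have h2 : ∀ b ∈ (Finset.univ : Finset (Fin m)), errP D0 Wc s K δ e1 b ≤
      s * ((D0 b : ℝ) * Wc b * δ1) + K * (Real.log (2 / δ1) + Real.log ((K : ℝ) + 1)) +
        (D0 b : ℝ) * (e1 * s * K) := by
    intro b _
    have h3 : (K : ℝ) * δ ≤ δ1 := by
      rw [hδdef, ← mul_div_assoc, div_le_iff₀ hK0]
      nlinarith [(Nat.cast_nonneg K : (0 : ℝ) ≤ K)]
    have h4 : -Real.log (δ / 2) = Real.log (2 / δ1) + Real.log ((K : ℝ) + 1) := by
      rw [← Real.log_inv, ← Real.log_mul (by positivity) (by positivity), hδdef]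
      congr 1
      field_simp
    unfold errP
    rw [sub_eq_add_neg, mul_add, h4]
    refine add_le_add (add_le_add ?_ le_rfl) (le_of_eq (by push_cast; ring))
    have hw := hWc b
    have h5 : 0 ≤ (((D0 b * s : ℕ) : ℝ)) * Wc b := by positivity
    calc (K : ℝ) * (((D0 b * s : ℕ) : ℝ) * Wc b * δ)
        = (((D0 b * s : ℕ) : ℝ) * Wc b) * ((K : ℝ) * δ) := by ring
      _ ≤ (((D0 b * s : ℕ) : ℝ) * Wc b) * δ1 := mul_le_mul_of_nonneg_left h3 h5
      _ = s * ((D0 b : ℝ) * Wc b * δ1) := by push_cast; ring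
  refine (Finset.sum_le_sum h2).trans (le_of_eq ?_)
  have h3 : ∑ b, (D0 b : ℝ) * (e1 * s * K) = D * (e1 * s * K) := by
    rw [← Finset.sum_mul, ← hDr]
  rw [Finset.sum_add_distrib, Finset.sum_add_distrib, ← Finset.mul_sum, Finset.sum_const,
    Finset.card_univ, Fintype.card_fin, nsmul_eq_mul, h3, hKdef]
  push_cast
  ring

section main

variable {ι : Type} [Fintype ι] [DecidableEq ι]

/-- the bound for one `s` -/
theorem det_oneP (D0 : Fin m → ℕ) (hD0 : ∀ b c, b ≤ c → D0 c ≤ D0 b) (μ : Fin m → Pot)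
    (γ : Fin m → ℝ) {s : ℕ} {C : ℝ} (G : Cells m ι (fun b z => (s : ℝ) * WtP D0 μ γ b z) C)
    (hC : 0 ≤ C) {R1 : ℝ} {ie : ι}
    (hlim : ∀ b, ∃ c : Fin m → ℂ, Tendsto (fun z => G.S ie z b) (cocompact ℂ) (𝓝 c))
    {K : ℕ} {Wc : Fin m → ℝ} {e : ℝ} (hN : ∀ b, N3 (μ b).U (μ b).En (Wc b) e)
    {L δ : ℝ} (hL : 0 ≤ L) (hδ : 0 < δ) (hδ2 : δ ≤ 2)
    (hPU : ∀ A : Finset ℂ, A.card ≤ K → Nonempty (PU G.O (Metric.closedBall 0 R1) ie L δ A))
    {M : ℝ} (hM1 : 1 ≤ M) (hM : (volume : Measure ℂ).real (Metric.closedBall 0 R1) ≤ M)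
    {τ : Type} [Fintype τ] [DecidableEq τ]
    (hτ : Fintype.card τ = Fintype.card (Σ b : Fin m, Fin (D0 b * s))) (hτK : Fintype.card τ ≤ K)
    (a : τ → ℂ) (v : τ → Fin m → ℂ) :
    adet (ptM (fun b => D0 b * s) a v) ≤
      ((2 * (1 + max C (Fintype.card ι * L * C)) ^ 2 * M) ^ K) ^ m *
        Real.exp (-((s : ℝ) ^ 2 * E0P D0 μ γ - ∑ b, errP D0 Wc s K δ e b)) *
        ∏ i, G.N (a i) (v i) := by
  have hyp := G.hyp (isCompact_closedBall (0 : ℂ) R1) hM hlim hL hδ hPU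
    (Dg := fun b => D0 b * s) (fun b c hbc => Nat.mul_le_mul_right s (hD0 b c hbc))
    (fun b => energy_sP D0 μ γ s K hN hδ hδ2 b)
  have hC' : 0 ≤ max C (Fintype.card ι * L * C) := le_max_of_le_left hC
  have hfl := hyp.flag hC'
  have h1 := theoremN hδ (by linarith) hM1 hfl τ hτ hτK a v
  refine h1.trans (le_of_eq ?_)
  congr 3
  unfold E0P
  rw [Finset.sum_sub_distrib, Finset.mul_sum]

/-- **the determinant bound**: all points, all vectors, all large `s` -/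
theorem det_bound_of_cellsP (D0 : Fin m → ℕ) (hD0 : ∀ b c, b ≤ c → D0 c ≤ D0 b)
    (μ : Fin m → Pot) (γ : Fin m → ℝ) {R1 : ℝ} {ie : ι}
    (S : ι → ℂ → Matrix (Fin m) (Fin m) ℂ)
    (hlim : ∀ b, ∃ c : Fin m → ℂ, Tendsto (fun z => S ie z b) (cocompact ℂ) (𝓝 c))
    {η C0 C1 δ0 : ℝ} (hη : 0 ≤ η) (hC0 : 0 ≤ C0) (hC1 : 0 ≤ C1) (hδ0 : 0 < δ0)
    (O : ι → Set ℂ)
    (hPU : ∀ K : ℕ, ∀ A : Finset ℂ, A.card ≤ K →
      Nonempty (PU O (Metric.closedBall 0 R1) ie (C1 * (K + 1)) (δ0 / (K + 1)) A))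
    {ε : ℝ} (hε : 2 * m * (∑ b, (D0 b : ℝ)) * η < ε) :
    ∀ᶠ s : ℕ in atTop, ∀ G : Cells m ι (fun b z => (s : ℝ) * WtP D0 μ γ b z)
      (C0 * Real.exp (η * s)), G.O = O → G.S = S →
      ∀ (τ : Type) [Fintype τ] [DecidableEq τ],
        Fintype.card τ = Fintype.card (Σ b : Fin m, Fin (D0 b * s)) →
        ∀ (a : τ → ℂ) (v : τ → Fin m → ℂ),
        adet (ptM (fun b => D0 b * s) a v) ≤
          Real.exp (-(E0P D0 μ γ - ε) * (s : ℝ) ^ 2) * ∏ i, G.N (a i) (v i) := by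
  set D : ℕ := ∑ b, D0 b with hDdef
  set M : ℝ := max 1 ((volume : Measure ℂ).real (Metric.closedBall 0 R1)) with hMdef
  have hM1 : 1 ≤ M := le_max_left _ _
  -- shrink `δ0`
  set δ1 : ℝ := min δ0 2 with hδ1def
  have hδ1 : 0 < δ1 := lt_min hδ0 two_pos
  set P : ℝ := 1 + C0 + Fintype.card ι * C1 * C0 with hPdef
  have hP1 : 1 ≤ P := by
    have : 0 ≤ (Fintype.card ι : ℝ) * C1 * C0 := by positivity
    linarith
  set e2 : ℝ := ε - 2 * m * D * η with he2def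
  have hDr : ((D : ℕ) : ℝ) = ∑ b, (D0 b : ℝ) := by rw [hDdef]; push_cast; rfl
  have he2 : 0 < e2 := by
    rw [he2def, hDr]
    linarith
  -- the error of the potentials
  set e1 : ℝ := e2 / (2 * ((D : ℝ) ^ 2 + 1)) with he1def
  have he1 : 0 < e1 := by positivity
  have he1D : e1 * (D : ℝ) ^ 2 ≤ e2 / 2 := by
    rw [he1def, div_mul_eq_mul_div, div_le_div_iff₀ (by positivity) two_pos]
    nlinarith [sq_nonneg (D : ℝ)]
  choose Wc hWc hN using fun b => (μ b).n3 e1 he1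
  set c2 : ℝ := ∑ b, (D0 b : ℝ) * Wc b * δ1 with hc2
  set e : ℝ := e2 / 2 with hedef
  have he : 0 < e := by positivity
  have hsm := small (m * D * (Real.log (2 * M) + 2 * Real.log P) + c2 + m * D * Real.log (2 / δ1))
    (c4 := 3 * m * D) (by positivity) D he
  filter_upwards [hsm] with s hs
  generalize hCdef : C0 * Real.exp (η * s) = C
  intro G hGO hGS τ _ _ hτ a v
  subst hGO hGS
  have hs0 : (0 : ℝ) ≤ s := Nat.cast_nonneg s
  set K : ℕ := D * s with hKdef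
  have hcard : Fintype.card (Σ b : Fin m, Fin (D0 b * s)) = K := by
    rw [Fintype.card_sigma, hKdef, hDdef, Finset.sum_mul]
    simp
  have hC : 0 ≤ C := by rw [← hCdef]; positivity
  have hK0 : (0 : ℝ) < (K : ℝ) + 1 := by positivity
  set δ : ℝ := δ1 / (K + 1) with hδdef
  have hδ : 0 < δ := by positivity
  have hδ2 : δ ≤ 2 := by
    rw [hδdef, div_le_iff₀ hK0]
    have : δ1 ≤ 2 := min_le_right _ _
    nlinarith [(Nat.cast_nonneg K : (0 : ℝ) ≤ K)]
  have hPU' : ∀ A : Finset ℂ, A.card ≤ K →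
      Nonempty (PU G.O (Metric.closedBall 0 R1) ie (C1 * (K + 1)) δ A) := by
    intro A hA
    obtain ⟨P'⟩ := hPU K A hA
    refine ⟨{ P' with sep := fun k a ha z hz => P'.sep k a ha z (lt_of_lt_of_le hz ?_) }⟩
    rw [hδdef]
    exact div_le_div_of_nonneg_right (min_le_left _ _) hK0.le
  have h1 := det_oneP D0 hD0 μ γ G hC hlim (K := K) hN (L := C1 * (K + 1)) (by positivity) hδ hδ2
    hPU' hM1 (le_max_right _ _) hτ (le_of_eq (hτ.trans hcard)) a v
  refine h1.trans ?_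
  have hNp : 0 ≤ ∏ i, G.N (a i) (v i) := Finset.prod_nonneg fun i _ => apply_nonneg _ _
  refine mul_le_mul_of_nonneg_right ?_ hNp
  set C' : ℝ := max C (Fintype.card ι * (C1 * (K + 1)) * C) with hC'def
  have hC' : 0 ≤ C' := le_max_of_le_left hC
  set B : ℝ := 2 * (1 + C') ^ 2 * M with hBdef
  have hB : 0 < B := by positivity
  -- bound of the constant
  have hlogB : Real.log B ≤ Real.log (2 * M) + 2 * Real.log P + 2 * Real.log ((K : ℝ) + 1) +
      2 * (η * s) := by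
    rw [hBdef]
    exact logB_le (n := Fintype.card ι) (Nat.cast_nonneg _) hC0 hC1 hη (Nat.cast_nonneg _) hs0
      hM1 hPdef (by rw [hC'def, ← hCdef])
  have hpow : (B ^ K) ^ m = Real.exp ((K : ℝ) * m * Real.log B) := by
    rw [← pow_mul, ← Real.exp_log hB, ← Real.exp_nat_mul, Real.exp_log hB]
    push_cast
    ring_nf
  rw [hpow, ← Real.exp_add]
  apply Real.exp_le_exp.2
  -- the error terms
  have herr : ∑ b, errP D0 Wc s K δ e1 b ≤ s * c2 + m * (K * (Real.log (2 / δ1) +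
      Real.log ((K : ℝ) + 1))) + e1 * (D : ℝ) ^ 2 * (s : ℝ) ^ 2 :=
    sum_errP_le D0 hWc s hδ1
  have hKm : (0 : ℝ) ≤ (K : ℝ) * m := by positivity
  have h7 := mul_le_mul_of_nonneg_left hlogB hKm
  have hKr : (K : ℝ) = D * s := by rw [hKdef]; push_cast; ring
  have hfin : (K : ℝ) * m * (Real.log (2 * M) + 2 * Real.log P + 2 * Real.log ((K : ℝ) + 1) +
      2 * (η * s)) + (s * c2 + m * (K * (Real.log (2 / δ1) + Real.log ((K : ℝ) + 1))) +
        e1 * (D : ℝ) ^ 2 * (s : ℝ) ^ 2) ≤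
      ε * (s : ℝ) ^ 2 := by
    have h8 : (K : ℝ) * m * (Real.log (2 * M) + 2 * Real.log P + 2 * Real.log ((K : ℝ) + 1) +
        2 * (η * s)) + (s * c2 + m * (K * (Real.log (2 / δ1) + Real.log ((K : ℝ) + 1)))) =
        (s : ℝ) * ((m * D * (Real.log (2 * M) + 2 * Real.log P) + c2 +
          m * D * Real.log (2 / δ1)) + 3 * m * D * Real.log ((K : ℝ) + 1)) +
          2 * m * D * η * (s : ℝ) ^ 2 := by
      generalize Real.log ((K : ℝ) + 1) = l
      rw [hKr]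
      ring
    have h9 := hs
    have h10 : e1 * (D : ℝ) ^ 2 * (s : ℝ) ^ 2 ≤ e2 / 2 * (s : ℝ) ^ 2 :=
      mul_le_mul_of_nonneg_right he1D (sq_nonneg _)
    have h11 : e2 * (s : ℝ) ^ 2 = (ε - 2 * m * D * η) * (s : ℝ) ^ 2 := by rw [he2def]
    rw [hedef] at h9
    linarith
  linarith

end main

section walls

variable {κ ι : Type} [DecidableEq ι] [Fintype ι] [Fintype κ] (G : WallData κ ι m)

theorem continuous_WtP (D0 : Fin m → ℕ) (μ : Fin m → Pot) (γ : Fin m → ℝ) (b : Fin m) :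
    Continuous (WtP D0 μ γ b) := by
  unfold WtP
  exact (continuous_const.mul (μ b).cont).add continuous_const

/-- **route N**: the determinant bound from the wall data, general potentials -/
theorem nodes_boundP (D0 : Fin m → ℕ) (hD0 : ∀ b c, b ≤ c → D0 c ≤ D0 b) (μ : Fin m → Pot)
    (γ : Fin m → ℝ) (hC : G.Cond (WtP D0 μ γ)) {ε : ℝ} (hε : 0 < ε) :
    ∀ᶠ s : ℕ in atTop, ∀ (τ : Type) [Fintype τ] [DecidableEq τ],
      Fintype.card τ = Fintype.card (Σ b : Fin m, Fin (D0 b * s)) →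
      ∀ (a : τ → ℂ) (v : τ → Fin m → ℂ),
        adet (ptM (fun b => D0 b * s) a v) ≤
          Real.exp (-(E0P D0 μ γ - ε) * (s : ℝ) ^ 2) *
            ∏ i, sharpN G (WtP D0 μ γ) s (a i) (v i) := by
  set D : ℕ := ∑ b, D0 b with hDdef
  have hDr : ((D : ℕ) : ℝ) = ∑ b, (D0 b : ℝ) := by rw [hDdef]; push_cast; rfl
  set η : ℝ := ε / (4 * (2 * m * D + D + 1)) with hη
  have hden : (0 : ℝ) < 4 * (2 * m * D + D + 1) := by positivity
  have hη0 : 0 < η := by positivity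
  have hη1 : (2 * m * D + D + 1) * η = ε / 4 := by
    rw [hη]
    field_simp
  obtain ⟨O, C0, C1, δ0, hC0, hC1, hδ0, hδ1, hQ, hOU, hreg, hPU⟩ :=
    G.exists_cells (continuous_WtP D0 μ γ) hC hη0
  have hC00 : 0 ≤ C0 := by linarith
  have h2m : 2 * (m : ℝ) * (∑ b, (D0 b : ℝ)) * η < ε / 2 := by
    rw [← hDr]
    have : 0 ≤ ((D : ℝ) + 1) * η := by positivity
    nlinarith
  have hmain := det_bound_of_cellsP D0 hD0 μ γ G.S G.lim hη0.le hC00 hC1.le hδ0 O hPU h2m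
  set c : ℝ := Real.log (m * C0 + 1) with hc
  have hc0 : 0 ≤ c := Real.log_nonneg (by have : 0 ≤ (m : ℝ) * C0 := by positivity
                                          linarith)
  have hlin := small (D * c) le_rfl 0 (show (0 : ℝ) < ε / 8 by positivity)
  filter_upwards [hmain, hlin] with s hs hls τ _ _ hτ a v
  obtain ⟨Q, hQO, hQS⟩ := hQ s (Nat.cast_nonneg s)
  have h1 := hs Q hQO hQS τ hτ a v
  refine h1.trans ?_
  have hs0 : (0 : ℝ) ≤ s := Nat.cast_nonneg s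
  have hcard : Fintype.card (Σ b : Fin m, Fin (D0 b * s)) = D * s := by
    rw [Fintype.card_sigma, hDdef, Finset.sum_mul]
    simp
  have hfac : ∀ i ∈ (Finset.univ : Finset τ), Q.N (a i) (v i) ≤
      Real.exp (c + η * s) * sharpN G (WtP D0 μ γ) s (a i) (v i) := by
    intro i _
    obtain ⟨k, hk⟩ := reg_cover G.g G.T (a i)
    have h2 := N_le_cellN Q (by positivity) (k := k) (z := a i) (by rw [hQO]; exact hreg k hk) (v i)
    rw [hQS] at h2
    have h3 := cellN_le_sharpN G (W := WtP D0 μ γ) (s := s) hk (v i)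
    have h4 : 0 ≤ sharpN G (WtP D0 μ γ) s (a i) (v i) := apply_nonneg _ _
    have h5 : (m : ℝ) * (C0 * Real.exp (η * s)) ≤ Real.exp (c + η * s) := by
      rw [Real.exp_add, hc, Real.exp_log (by positivity)]
      have := Real.exp_pos (η * s)
      nlinarith
    exact h2.trans (mul_le_mul h5 h3 (apply_nonneg _ _) (Real.exp_pos _).le)
  have hprod : ∏ i, Q.N (a i) (v i) ≤
      Real.exp ((D * s : ℕ) * (c + η * s)) * ∏ i, sharpN G (WtP D0 μ γ) s (a i) (v i) := by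
    refine (Finset.prod_le_prod (fun i _ => apply_nonneg _ _) hfac).trans (le_of_eq ?_)
    rw [Finset.prod_mul_distrib, Finset.prod_const, Finset.card_univ, hτ, hcard,
      ← Real.exp_nat_mul]
  have hP0 : 0 ≤ ∏ i, sharpN G (WtP D0 μ γ) s (a i) (v i) :=
    Finset.prod_nonneg fun i _ => apply_nonneg _ _
  calc Real.exp (-(E0P D0 μ γ - ε / 2) * (s : ℝ) ^ 2) * ∏ i, Q.N (a i) (v i)
      ≤ Real.exp (-(E0P D0 μ γ - ε / 2) * (s : ℝ) ^ 2) *
        (Real.exp ((D * s : ℕ) * (c + η * s)) * ∏ i, sharpN G (WtP D0 μ γ) s (a i) (v i)) :=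
        mul_le_mul_of_nonneg_left hprod (Real.exp_pos _).le
    _ = Real.exp (-(E0P D0 μ γ - ε / 2) * (s : ℝ) ^ 2 + (D * s : ℕ) * (c + η * s)) *
        ∏ i, sharpN G (WtP D0 μ γ) s (a i) (v i) := by rw [Real.exp_add]; ring
    _ ≤ _ := by
        refine mul_le_mul_of_nonneg_right (Real.exp_le_exp.2 ?_) hP0
        have h6 : (s : ℝ) * (D * c) ≤ ε / 8 * (s : ℝ) ^ 2 := by
          have := hls
          simp only [zero_mul, add_zero] at this
          exact this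
        have h7 : (D : ℝ) * η ≤ ε / 4 := by
          have : 0 ≤ (2 * (m : ℝ) * D + 1) * η := by positivity
          nlinarith
        have h8 : (D : ℝ) * η * (s : ℝ) ^ 2 ≤ ε / 4 * (s : ℝ) ^ 2 :=
          mul_le_mul_of_nonneg_right h7 (by positivity)
        have h9 : ((D * s : ℕ) : ℝ) * (c + η * s) = (s : ℝ) * (D * c) + D * η * (s : ℝ) ^ 2 := by
          push_cast
          ring
        rw [h9]
        have h10 : 0 ≤ ε / 8 * (s : ℝ) ^ 2 := by positivity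
        nlinarith

end walls

end Vale.Agent.P030.H905
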