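import Vale.Agent.P030.H462.TabA
import Vale.Agent.P030.H866.Eval

/-!
# P030, route N: the weights of a table on the reading circles

`W_Sc_le` : upper bound of `W b` on a small circle `‖t‖ ≤ rn / rd` round a cusp, as an integer
combination of logarithms of natural numbers plus a small error.
-/

noncomputable section

namespace Vale.Agent.P030.H905.Rd

open Vale.Agent.P030.H462.TA
open Vale.Agent.P030.H866 (Sc)

/-- the coefficients of `z = (al + al' t)/(be + be' t)` -/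
structure Cv where
  al : ℤ
  al' : ℤ
  be : ℤ
  be' : ℤ

/-- the four cusps -/
def cv (c : Fin 4) : Cv :=
  match c with
  | 0 => ⟨1, 0, 1, -1⟩
  | 1 => ⟨1, -1, 2, 0⟩
  | 2 => ⟨0, -1, 1, -1⟩
  | 3 => ⟨-1, 1, 0, 2⟩

/-- the denominator -/
def den (c : Fin 4) (t : ℂ) : ℂ := ((cv c).be : ℂ) + ((cv c).be' : ℂ) * t

theorem Sc_eq (c : Fin 4) (t : ℂ) :
    Sc c t = (((cv c).al : ℂ) + ((cv c).al' : ℂ) * t) / den c t := by
  unfold Sc den cv
  fin_cases c
  · simp [div_eq_mul_inv, sub_eq_add_neg]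
  · simp [sub_eq_add_neg]
  · simp [div_eq_mul_inv, sub_eq_add_neg]
  · simp [sub_eq_add_neg, add_comm]

/-- constant coefficient of the form in the variable `t` -/
def A0 (c : Fin 4) (l : Lin) : ℤ × ℤ :=
  (l.ax * (cv c).al + l.bx * (cv c).be, l.ay * (cv c).al + l.bY * (cv c).be)

/-- leading coefficient of the form in the variable `t` -/
def A1 (c : Fin 4) (l : Lin) : ℤ × ℤ :=
  (l.ax * (cv c).al' + l.bx * (cv c).be', l.ay * (cv c).al' + l.bY * (cv c).be')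

/-- a Gaussian integer as a complex number -/
def toC (p : ℤ × ℤ) : ℂ := (p.1 : ℂ) + (p.2 : ℂ) * Complex.I

theorem toC_re (p : ℤ × ℤ) : (toC p).re = p.1 := by simp [toC]

theorem toC_im (p : ℤ × ℤ) : (toC p).im = p.2 := by simp [toC]

theorem normSq_toC (p : ℤ × ℤ) : ‖toC p‖ ^ 2 = ((p.1 ^ 2 + p.2 ^ 2 : ℤ) : ℝ) := by
  rw [← Complex.normSq_eq_norm_sq, Complex.normSq_apply, toC_re, toC_im]
  push_cast
  ring

/-- `m ‖A + A' t‖²` -/
def evt (c : Fin 4) (l : Lin) (t : ℂ) : ℝ := l.m * ‖toC (A0 c l) + toC (A1 c l) * t‖ ^ 2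

theorem ev_Sc (c : Fin 4) (l : Lin) (t : ℂ) (h : den c t ≠ 0) :
    l.ev (Sc c t) = evt c l t / ‖den c t‖ ^ 2 := by
  have h1 : l.a * Sc c t + l.b = (toC (A0 c l) + toC (A1 c l) * t) / den c t := by
    rw [Sc_eq, eq_div_iff h, add_mul, mul_div_assoc', div_mul_cancel₀ _ h]
    unfold den Lin.a Lin.b A0 A1 toC
    push_cast
    ring
  unfold Lin.ev evt
  rw [h1, norm_div, div_pow, mul_div_assoc]

/-- integer value at `t = 0` -/
def n0 (c : Fin 4) (l : Lin) : ℤ := l.m * ((A0 c l).1 ^ 2 + (A0 c l).2 ^ 2)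

/-- integer value of the leading coefficient -/
def n1 (c : Fin 4) (l : Lin) : ℤ := l.m * ((A1 c l).1 ^ 2 + (A1 c l).2 ^ 2)

theorem sqrt_evt (c : Fin 4) (l : Lin) (t : ℂ) :
    Real.sqrt (evt c l t) = Real.sqrt l.m * ‖toC (A0 c l) + toC (A1 c l) * t‖ := by
  unfold evt
  rw [Real.sqrt_mul (Nat.cast_nonneg _), Real.sqrt_sq (norm_nonneg _)]

theorem n0_eq (c : Fin 4) (l : Lin) : ((n0 c l : ℤ) : ℝ) = l.m * ‖toC (A0 c l)‖ ^ 2 := by
  rw [normSq_toC, n0]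
  push_cast
  ring

theorem n1_eq (c : Fin 4) (l : Lin) : ((n1 c l : ℤ) : ℝ) = l.m * ‖toC (A1 c l)‖ ^ 2 := by
  rw [normSq_toC, n1]
  push_cast
  ring

theorem n0_nonneg (c : Fin 4) (l : Lin) : (0 : ℝ) ≤ (n0 c l : ℤ) := by
  rw [n0_eq]; positivity

theorem n1_nonneg (c : Fin 4) (l : Lin) : (0 : ℝ) ≤ (n1 c l : ℤ) := by
  rw [n1_eq]; positivity

theorem sqrt_near (c : Fin 4) (l : Lin) (t : ℂ) :
    |Real.sqrt (evt c l t) - Real.sqrt ((n0 c l : ℤ) : ℝ)| ≤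
      Real.sqrt ((n1 c l : ℤ) : ℝ) * ‖t‖ := by
  rw [sqrt_evt, n0_eq, n1_eq, Real.sqrt_mul (Nat.cast_nonneg _), Real.sqrt_sq (norm_nonneg _),
    Real.sqrt_mul (Nat.cast_nonneg _), Real.sqrt_sq (norm_nonneg _), ← mul_sub, abs_mul,
    abs_of_nonneg (Real.sqrt_nonneg _), mul_assoc]
  refine mul_le_mul_of_nonneg_left ?_ (Real.sqrt_nonneg _)
  refine (abs_norm_sub_norm_le _ _).trans ?_
  rw [add_sub_cancel_left, norm_mul]

/-- logarithm near a positive number -/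
theorem log_near {x N κ : ℝ} (hN : 0 < N) (hκ0 : 0 ≤ κ) (hκ : κ < 1) (h : |x - N| ≤ κ * N) :
    |Real.log x - Real.log N| ≤ κ / (1 - κ) := by
  have h1 : 0 < 1 - κ := by linarith
  obtain ⟨ha, hb⟩ := abs_le.1 h
  have hx1 : (1 - κ) * N ≤ x := by linarith
  have hx2 : x ≤ (1 + κ) * N := by linarith
  have hx0 : 0 < x := lt_of_lt_of_le (mul_pos h1 hN) hx1
  have e1 : κ ≤ κ / (1 - κ) := by
    rw [le_div_iff₀ h1]
    nlinarith
  rw [abs_le]
  constructor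
  · have h2 : Real.log N ≤ Real.log (x / (1 - κ)) :=
      Real.log_le_log hN (by rw [le_div_iff₀ h1]; linarith)
    rw [Real.log_div hx0.ne' h1.ne'] at h2
    have h3 := Real.log_le_sub_one_of_pos (inv_pos.2 h1)
    rw [Real.log_inv] at h3
    have h4 : (1 - κ)⁻¹ - 1 = κ / (1 - κ) := by field_simp; ring
    linarith
  · have h2 := Real.log_le_log hx0 hx2
    rw [Real.log_mul (by linarith) hN.ne'] at h2
    have h3 := Real.log_le_sub_one_of_pos (show (0 : ℝ) < 1 + κ by linarith)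
    linarith

/-- the integer condition `√n r ≤ κ √N` -/
theorem sqrt_cond {n N : ℤ} {rn rd kn kd : ℕ} (hn : (0 : ℝ) ≤ n) (hN : (0 : ℝ) ≤ N)
    (hrd : 0 < rd) (hkd : 0 < kd)
    (h : (kd : ℤ) ^ 2 * (rn : ℤ) ^ 2 * n ≤ (kn : ℤ) ^ 2 * (rd : ℤ) ^ 2 * N) :
    Real.sqrt (n : ℝ) * ((rn : ℝ) / rd) ≤ ((kn : ℝ) / kd) * Real.sqrt (N : ℝ) := by
  have hrd0 : (0 : ℝ) < rd := by exact_mod_cast hrd
  have hkd0 : (0 : ℝ) < kd := by exact_mod_cast hkd
  have h1 : ((kd : ℝ)) ^ 2 * (rn : ℝ) ^ 2 * n ≤ (kn : ℝ) ^ 2 * (rd : ℝ) ^ 2 * N := by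
    exact_mod_cast h
  refine le_of_sq_le_sq ?_ (by positivity)
  rw [mul_pow, mul_pow, Real.sq_sqrt hn, Real.sq_sqrt hN, div_pow, div_pow, mul_div_assoc',
    div_mul_eq_mul_div, div_le_div_iff₀ (by positivity) (by positivity)]
  nlinarith

theorem abs_max_sub_max_le (a b c d : ℝ) : |max a b - max c d| ≤ max |a - c| |b - d| :=
  abs_max_sub_max_le_max a b c d

/-- both forms vary little -/
def okFar (c : Fin 4) (rn rd kn kd : ℕ) (f g : Lin) : Bool :=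
  decide (0 < max (n0 c f) (n0 c g) ∧
    (kd : ℤ) ^ 2 * (rn : ℤ) ^ 2 * n1 c f ≤ (kn : ℤ) ^ 2 * (rd : ℤ) ^ 2 * max (n0 c f) (n0 c g) ∧
    (kd : ℤ) ^ 2 * (rn : ℤ) ^ 2 * n1 c g ≤ (kn : ℤ) ^ 2 * (rd : ℤ) ^ 2 * max (n0 c f) (n0 c g))

/-- 1-norm -/
def n1n (p : ℤ × ℤ) : ℤ := |p.1| + |p.2|

/-- sup norm -/
def nin (p : ℤ × ℤ) : ℤ := max |p.1| |p.2|

/-- the second form dominates on the whole disc and varies little -/
def okIn (c : Fin 4) (rn rd kn kd : ℕ) (f g : Lin) : Bool :=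
  decide (0 < n0 c g ∧ n0 c f ≤ n0 c g ∧
    (kd : ℤ) ^ 2 * (rn : ℤ) ^ 2 * n1 c g ≤ (kn : ℤ) ^ 2 * (rd : ℤ) ^ 2 * n0 c g ∧
    n1n (A1 c g) * rn ≤ nin (A0 c g) * rd ∧
    (f.m : ℤ) * (n1n (A0 c f) * rd + n1n (A1 c f) * rn) ^ 2 ≤
      (g.m : ℤ) * (nin (A0 c g) * rd - n1n (A1 c g) * rn) ^ 2)

/-- the check of an atom -/
def okP (c : Fin 4) (rn rd kn kd : ℕ) (f g : Lin) : Bool :=
  okFar c rn rd kn kd f g || okIn c rn rd kn kd f g || okIn c rn rd kn kd g f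

/-- the number inside the logarithm -/
def vP (c : Fin 4) (f g : Lin) : ℤ := max (n0 c f) (n0 c g)

theorem norm_le_n1n (p : ℤ × ℤ) : ‖toC p‖ ≤ n1n p := by
  refine (Complex.norm_le_abs_re_add_abs_im _).trans (le_of_eq ?_)
  rw [toC_re, toC_im, n1n]
  push_cast
  rfl

theorem nin_le_norm (p : ℤ × ℤ) : (nin p : ℝ) ≤ ‖toC p‖ := by
  have h1 := Complex.abs_re_le_norm (toC p)
  have h2 := Complex.abs_im_le_norm (toC p)
  rw [toC_re] at h1
  rw [toC_im] at h2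
  rw [nin]
  push_cast
  exact max_le h1 h2

section main

variable {c : Fin 4} {rn rd kn kd : ℕ} {f g : Lin} {t : ℂ}

theorem far_near (hrd : 0 < rd) (hk : kn < kd) (h : okFar c rn rd kn kd f g = true)
    (ht : ‖t‖ ≤ (rn : ℝ) / rd) :
    0 < vP c f g ∧ 0 < max (evt c f t) (evt c g t) ∧
    |(1 / 2) * Real.log (max (evt c f t) (evt c g t)) - (1 / 2) * Real.log (vP c f g : ℤ)| ≤
      ((kn : ℝ) / kd) / (1 - (kn : ℝ) / kd) := by
  simp only [okFar, decide_eq_true_eq] at h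
  obtain ⟨hN, hf, hg⟩ := h
  have hkd : 0 < kd := by omega
  have hkd0 : (0 : ℝ) < kd := by exact_mod_cast hkd
  have hκ0 : (0 : ℝ) ≤ (kn : ℝ) / kd := by positivity
  have hκ1 : (kn : ℝ) / kd < 1 := by
    rw [div_lt_one hkd0]
    exact_mod_cast hk
  have hNR : (0 : ℝ) < ((max (n0 c f) (n0 c g) : ℤ) : ℝ) := by exact_mod_cast hN
  have hs := Real.sqrt_pos.2 hNR
  have h1 := sqrt_cond (rn := rn) (kn := kn) (n1_nonneg c f) hNR.le hrd hkd hf
  have h2 := sqrt_cond (rn := rn) (kn := kn) (n1_nonneg c g) hNR.le hrd hkd hg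
  have hmax : Real.sqrt ((max (n0 c f) (n0 c g) : ℤ) : ℝ) =
      max (Real.sqrt ((n0 c f : ℤ) : ℝ)) (Real.sqrt ((n0 c g : ℤ) : ℝ)) := by
    rw [Int.cast_max, Real.sqrt_monotone.map_max]
  have hnear : |Real.sqrt (max (evt c f t) (evt c g t)) -
      Real.sqrt ((max (n0 c f) (n0 c g) : ℤ) : ℝ)| ≤
      ((kn : ℝ) / kd) * Real.sqrt ((max (n0 c f) (n0 c g) : ℤ) : ℝ) := by
    rw [Real.sqrt_monotone.map_max, hmax]
    refine (abs_max_sub_max_le _ _ _ _).trans ?_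
    rw [← hmax]
    refine max_le ?_ ?_
    · exact ((sqrt_near c f t).trans (mul_le_mul_of_nonneg_left ht (Real.sqrt_nonneg _))).trans h1
    · exact ((sqrt_near c g t).trans (mul_le_mul_of_nonneg_left ht (Real.sqrt_nonneg _))).trans h2
  have h3 := log_near hs hκ0 hκ1 hnear
  have hpos : 0 < Real.sqrt (max (evt c f t) (evt c g t)) := by
    have h4 := (abs_le.1 hnear).1
    have h5 : 0 < (1 - (kn : ℝ) / kd) * Real.sqrt ((max (n0 c f) (n0 c g) : ℤ) : ℝ) :=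
      mul_pos (by linarith) hs
    linarith
  refine ⟨hN, Real.sqrt_pos.1 hpos, ?_⟩
  rw [Real.log_sqrt (Real.sqrt_pos.1 hpos).le, Real.log_sqrt hNR.le] at h3
  unfold vP
  rw [one_div_mul_eq_div, one_div_mul_eq_div]
  exact h3

theorem in_near (hrd : 0 < rd) (hk : kn < kd) (h : okIn c rn rd kn kd f g = true)
    (ht : ‖t‖ ≤ (rn : ℝ) / rd) :
    0 < vP c f g ∧ 0 < max (evt c f t) (evt c g t) ∧
    |(1 / 2) * Real.log (max (evt c f t) (evt c g t)) - (1 / 2) * Real.log (vP c f g : ℤ)| ≤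
      ((kn : ℝ) / kd) / (1 - (kn : ℝ) / kd) := by
  simp only [okIn, decide_eq_true_eq] at h
  obtain ⟨hN, hfg, hg, hB, hA⟩ := h
  have hkd : 0 < kd := by omega
  have hkd0 : (0 : ℝ) < kd := by exact_mod_cast hkd
  have hrd0 : (0 : ℝ) < rd := by exact_mod_cast hrd
  have hκ0 : (0 : ℝ) ≤ (kn : ℝ) / kd := by positivity
  have hκ1 : (kn : ℝ) / kd < 1 := by
    rw [div_lt_one hkd0]
    exact_mod_cast hk
  have hNR : (0 : ℝ) < ((n0 c g : ℤ) : ℝ) := by exact_mod_cast hN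
  have hs := Real.sqrt_pos.2 hNR
  have h2 := sqrt_cond (rn := rn) (kn := kn) (n1_nonneg c g) hNR.le hrd hkd hg
  have hnear : |Real.sqrt (evt c g t) - Real.sqrt ((n0 c g : ℤ) : ℝ)| ≤
      ((kn : ℝ) / kd) * Real.sqrt ((n0 c g : ℤ) : ℝ) :=
    ((sqrt_near c g t).trans (mul_le_mul_of_nonneg_left ht (Real.sqrt_nonneg _))).trans h2
  have h3 := log_near hs hκ0 hκ1 hnear
  have hpos : 0 < Real.sqrt (evt c g t) := by
    have h4 := (abs_le.1 hnear).1
    have h5 : 0 < (1 - (kn : ℝ) / kd) * Real.sqrt ((n0 c g : ℤ) : ℝ) := mul_pos (by linarith) hs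
    linarith
  -- domination
  have hdom : evt c f t ≤ evt c g t := by
    have hr0 : (0 : ℝ) ≤ (rn : ℝ) / rd := by positivity
    have e1 : ‖toC (A0 c f) + toC (A1 c f) * t‖ * rd ≤
        (n1n (A0 c f) : ℝ) * rd + (n1n (A1 c f) : ℝ) * rn := by
      have h5 : ‖toC (A1 c f) * t‖ * rd ≤ (n1n (A1 c f) : ℝ) * rn := by
        rw [norm_mul]
        have h6 : ‖t‖ * rd ≤ rn := by rwa [le_div_iff₀ hrd0] at ht
        calc ‖toC (A1 c f)‖ * ‖t‖ * rd = ‖toC (A1 c f)‖ * (‖t‖ * rd) := by ring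
          _ ≤ (n1n (A1 c f) : ℝ) * rn := mul_le_mul (norm_le_n1n _) h6 (by positivity)
              ((norm_nonneg _).trans (norm_le_n1n _))
      have h7 := norm_add_le (toC (A0 c f)) (toC (A1 c f) * t)
      have h8 := norm_le_n1n (A0 c f)
      calc ‖toC (A0 c f) + toC (A1 c f) * t‖ * rd
          ≤ (‖toC (A0 c f)‖ + ‖toC (A1 c f) * t‖) * rd :=
            mul_le_mul_of_nonneg_right h7 hrd0.le
        _ = ‖toC (A0 c f)‖ * rd + ‖toC (A1 c f) * t‖ * rd := by ring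
        _ ≤ _ := add_le_add (mul_le_mul_of_nonneg_right h8 hrd0.le) h5
    have e2 : (nin (A0 c g) : ℝ) * rd - (n1n (A1 c g) : ℝ) * rn ≤
        ‖toC (A0 c g) + toC (A1 c g) * t‖ * rd := by
      have h5 : ‖toC (A1 c g) * t‖ * rd ≤ (n1n (A1 c g) : ℝ) * rn := by
        rw [norm_mul]
        have h6 : ‖t‖ * rd ≤ rn := by rwa [le_div_iff₀ hrd0] at ht
        calc ‖toC (A1 c g)‖ * ‖t‖ * rd = ‖toC (A1 c g)‖ * (‖t‖ * rd) := by ring
          _ ≤ (n1n (A1 c g) : ℝ) * rn := mul_le_mul (norm_le_n1n _) h6 (by positivity)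
              ((norm_nonneg _).trans (norm_le_n1n _))
      have h7 : ‖toC (A0 c g)‖ - ‖toC (A1 c g) * t‖ ≤ ‖toC (A0 c g) + toC (A1 c g) * t‖ := by
        have := norm_sub_norm_le (toC (A0 c g)) (-(toC (A1 c g) * t))
        rwa [norm_neg, sub_neg_eq_add] at this
      have h8 := nin_le_norm (A0 c g)
      have h9 := mul_le_mul_of_nonneg_right h7 hrd0.le
      have h10 := mul_le_mul_of_nonneg_right h8 hrd0.le
      linarith
    have e3 : (0 : ℝ) ≤ (nin (A0 c g) : ℝ) * rd - (n1n (A1 c g) : ℝ) * rn := by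
      have : ((n1n (A1 c g) * rn : ℤ) : ℝ) ≤ ((nin (A0 c g) * rd : ℤ) : ℝ) := by exact_mod_cast hB
      push_cast at this
      linarith
    have e4 : (f.m : ℝ) * ((n1n (A0 c f) : ℝ) * rd + (n1n (A1 c f) : ℝ) * rn) ^ 2 ≤
        (g.m : ℝ) * ((nin (A0 c g) : ℝ) * rd - (n1n (A1 c g) : ℝ) * rn) ^ 2 := by
      exact_mod_cast hA
    have e5 : evt c f t * (rd : ℝ) ^ 2 ≤ evt c g t * (rd : ℝ) ^ 2 := by
      calc evt c f t * (rd : ℝ) ^ 2
          = f.m * (‖toC (A0 c f) + toC (A1 c f) * t‖ * rd) ^ 2 := by unfold evt; ring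
        _ ≤ f.m * ((n1n (A0 c f) : ℝ) * rd + (n1n (A1 c f) : ℝ) * rn) ^ 2 :=
            mul_le_mul_of_nonneg_left (pow_le_pow_left₀ (by positivity) e1 2) (Nat.cast_nonneg _)
        _ ≤ _ := e4
        _ ≤ g.m * (‖toC (A0 c g) + toC (A1 c g) * t‖ * rd) ^ 2 :=
            mul_le_mul_of_nonneg_left (pow_le_pow_left₀ e3 e2 2) (Nat.cast_nonneg _)
        _ = evt c g t * (rd : ℝ) ^ 2 := by unfold evt; ring
    exact le_of_mul_le_mul_right e5 (by positivity)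
  have hv : vP c f g = n0 c g := max_eq_right hfg
  rw [hv, max_eq_right hdom]
  refine ⟨hN, Real.sqrt_pos.1 hpos, ?_⟩
  rw [Real.log_sqrt (Real.sqrt_pos.1 hpos).le, Real.log_sqrt hNR.le] at h3
  rw [one_div_mul_eq_div, one_div_mul_eq_div]
  exact h3

theorem okP_near (hrd : 0 < rd) (hk : kn < kd) (h : okP c rn rd kn kd f g = true)
    (ht : ‖t‖ ≤ (rn : ℝ) / rd) :
    0 < vP c f g ∧ 0 < max (evt c f t) (evt c g t) ∧
    |(1 / 2) * Real.log (max (evt c f t) (evt c g t)) - (1 / 2) * Real.log (vP c f g : ℤ)| ≤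
      ((kn : ℝ) / kd) / (1 - (kn : ℝ) / kd) := by
  simp only [okP, Bool.or_eq_true] at h
  rcases h with (h | h) | h
  · exact far_near hrd hk h ht
  · exact in_near hrd hk h ht
  · have h1 := in_near hrd hk h ht
    have e1 : vP c g f = vP c f g := max_comm _ _
    rwa [e1, max_comm] at h1

theorem lmax_near (hrd : 0 < rd) (hk : kn < kd) (h : okP c rn rd kn kd f g = true)
    (ht : ‖t‖ ≤ (rn : ℝ) / rd) (hd : den c t ≠ 0) :
    |lmax f g (Sc c t) - ((1 / 2) * Real.log (vP c f g : ℤ) - Real.log ‖den c t‖)| ≤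
      ((kn : ℝ) / kd) / (1 - (kn : ℝ) / kd) := by
  obtain ⟨h0, h1, h2⟩ := okP_near hrd hk h ht
  have hd0 : 0 < ‖den c t‖ := norm_pos_iff.2 hd
  have e1 : lmax f g (Sc c t) = (1 / 2) * Real.log (max (evt c f t) (evt c g t)) -
      Real.log ‖den c t‖ := by
    unfold lmax
    rw [ev_Sc c f t hd, ev_Sc c g t hd, max_div_div_right (by positivity),
      Real.log_div h1.ne' (by positivity), Real.log_pow]
    push_cast
    ring
  rw [e1]
  have e2 : (1 / 2) * Real.log (max (evt c f t) (evt c g t)) - Real.log ‖den c t‖ -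
      ((1 / 2) * Real.log (vP c f g : ℤ) - Real.log ‖den c t‖) =
      (1 / 2) * Real.log (max (evt c f t) (evt c g t)) - (1 / 2) * Real.log (vP c f g : ℤ) := by
    ring
  rw [e2]
  exact h2

end main

/-! ### mirror images -/

theorem A0_cj (c : Fin 4) (l : Lin) : A0 c l.cj = ((A0 c l).1, -(A0 c l).2) := by
  unfold A0 Lin.cj
  ext
  · rfl
  · simp only
    ring

theorem A1_cj (c : Fin 4) (l : Lin) : A1 c l.cj = ((A1 c l).1, -(A1 c l).2) := by
  unfold A1 Lin.cj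
  ext
  · rfl
  · simp only
    ring

theorem n0_cj (c : Fin 4) (l : Lin) : n0 c l.cj = n0 c l := by
  unfold n0
  rw [A0_cj]
  simp [Lin.cj]

theorem n1_cj (c : Fin 4) (l : Lin) : n1 c l.cj = n1 c l := by
  unfold n1
  rw [A1_cj]
  simp [Lin.cj]

theorem vP_cj (c : Fin 4) (f g : Lin) : vP c f.cj g.cj = vP c f g := by
  unfold vP
  rw [n0_cj, n0_cj]

theorem okFar_cj (c : Fin 4) (rn rd kn kd : ℕ) (f g : Lin) :
    okFar c rn rd kn kd f.cj g.cj = okFar c rn rd kn kd f g := by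
  unfold okFar
  rw [n0_cj, n0_cj, n1_cj, n1_cj]

theorem n1n_neg (a b : ℤ) : n1n (a, -b) = n1n (a, b) := by simp [n1n]

theorem nin_neg (a b : ℤ) : nin (a, -b) = nin (a, b) := by simp [nin]

theorem okIn_cj (c : Fin 4) (rn rd kn kd : ℕ) (f g : Lin) :
    okIn c rn rd kn kd f.cj g.cj = okIn c rn rd kn kd f g := by
  unfold okIn
  rw [n0_cj, n0_cj, n1_cj, A0_cj, A1_cj, A0_cj, A1_cj, n1n_neg, n1n_neg, n1n_neg, nin_neg]
  rfl

theorem okP_cj (c : Fin 4) (rn rd kn kd : ℕ) (f g : Lin) :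
    okP c rn rd kn kd f.cj g.cj = okP c rn rd kn kd f g := by
  unfold okP
  rw [okFar_cj, okIn_cj, okIn_cj]

/-! ### tables -/

/-- the check of all entries -/
def readOk (D : Tab) (c : Fin 4) (rn rd kn kd : ℕ) : Bool :=
  D.ents.all fun e => okP c rn rd kn kd e.f e.g

/-- the sum of logarithms -/
def readSum (D : Tab) (c : Fin 4) (b : ℕ) : ℝ :=
  (D.ents.map fun e => ((e.q.getD b 0 * e.mult : ℤ) : ℝ) * Real.log (vP c e.f e.g : ℤ)).sum

/-- total variation of the charges of block `b` -/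
def tvar (D : Tab) (b : ℕ) : ℤ := (D.ents.map fun e => |e.q.getD b 0| * e.mult).sum

theorem mult_nonneg (e : Ent) : 0 ≤ e.mult := by
  unfold Ent.mult
  split_ifs <;> norm_num

theorem U_near {c : Fin 4} {rn rd kn kd : ℕ} (hrd : 0 < rd) (hk : kn < kd) {e : Ent}
    (h : okP c rn rd kn kd e.f e.g = true) {t : ℂ} (ht : ‖t‖ ≤ (rn : ℝ) / rd)
    (hd : den c t ≠ 0) :
    |e.U (Sc c t) - (e.mult : ℝ) * ((1 / 2) * Real.log (vP c e.f e.g : ℤ) -
      Real.log ‖den c t‖)| ≤ (e.mult : ℝ) * (((kn : ℝ) / kd) / (1 - (kn : ℝ) / kd)) := by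
  have h1 := lmax_near hrd hk h ht hd
  unfold Ent.U Ent.mult
  by_cases hm : e.mir
  · simp only [hm, if_true]
    have h2 := lmax_near hrd hk ((okP_cj c rn rd kn kd e.f e.g).trans h) ht hd
    rw [vP_cj] at h2
    obtain ⟨a1, a2⟩ := abs_le.1 h1
    obtain ⟨b1, b2⟩ := abs_le.1 h2
    push_cast
    rw [abs_le]
    constructor <;> linarith
  · simp only [hm]
    simpa using h1

/-- **the weights on a reading circle**, upper bound -/
theorem W_Sc_le (D : Tab) (hL : 0 < D.L) {c : Fin 4} {rn rd kn kd : ℕ} (hrd : 0 < rd)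
    (hk : kn < kd) (h : readOk D c rn rd kn kd = true) {t : ℂ} (ht : ‖t‖ ≤ (rn : ℝ) / rd)
    (hd : den c t ≠ 0) (b : ℕ) :
    D.W b (Sc c t) ≤ (readSum D c b / 2 + (D.G.getD b 0 : ℤ)) / D.L +
      (tvar D b : ℝ) / D.L * (((kn : ℝ) / kd) / (1 - (kn : ℝ) / kd)) -
      (D.mass b : ℝ) / D.L * Real.log ‖den c t‖ := by
  have hL0 : (0 : ℝ) < D.L := by exact_mod_cast hL
  set κ : ℝ := ((kn : ℝ) / kd) / (1 - (kn : ℝ) / kd) with hκ
  set ld : ℝ := Real.log ‖den c t‖ with hld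
  have key : ∀ l : List Ent, (∀ e ∈ l, okP c rn rd kn kd e.f e.g = true) →
      (l.map fun e => (e.q.getD b 0 : ℝ) * e.U (Sc c t)).sum ≤
        (l.map fun e => ((e.q.getD b 0 * e.mult : ℤ) : ℝ) * Real.log (vP c e.f e.g : ℤ)).sum / 2 +
        (((l.map fun e => |e.q.getD b 0| * e.mult).sum : ℤ) : ℝ) * κ -
        (((l.map fun e => e.q.getD b 0 * e.mult).sum : ℤ) : ℝ) * ld := by
    intro l hl
    induction l with
    | nil => simp
    | cons e l ih =>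
      have h1 := ih fun e' he' => hl e' (List.mem_cons_of_mem _ he')
      have h2 := U_near hrd hk (hl e List.mem_cons_self) ht hd
      simp only [List.map_cons, List.sum_cons]
      have h3 : (e.q.getD b 0 : ℝ) * e.U (Sc c t) ≤
          (e.q.getD b 0 : ℝ) * ((e.mult : ℝ) * ((1 / 2) * Real.log (vP c e.f e.g : ℤ) - ld)) +
          |(e.q.getD b 0 : ℝ)| * ((e.mult : ℝ) * κ) := by
        have h4 : (e.q.getD b 0 : ℝ) * (e.U (Sc c t) -
            (e.mult : ℝ) * ((1 / 2) * Real.log (vP c e.f e.g : ℤ) - ld)) ≤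
            |(e.q.getD b 0 : ℝ)| * ((e.mult : ℝ) * κ) := by
          refine (le_abs_self _).trans ?_
          rw [abs_mul]
          exact mul_le_mul_of_nonneg_left h2 (abs_nonneg _)
        linarith
      push_cast at h1 ⊢
      linarith
  have h1 := key D.ents (by
    intro e he
    exact List.all_eq_true.1 h e he)
  unfold Tab.W readSum tvar Tab.mass
  have h2 : ((D.ents.map fun e => (e.q.getD b 0 : ℝ) * e.U (Sc c t)).sum +
      (D.G.getD b 0 : ℤ)) / (D.L : ℝ) ≤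
      ((D.ents.map fun e => ((e.q.getD b 0 * e.mult : ℤ) : ℝ) *
        Real.log (vP c e.f e.g : ℤ)).sum / 2 +
        (((D.ents.map fun e => |e.q.getD b 0| * e.mult).sum : ℤ) : ℝ) * κ -
        (((D.ents.map fun e => e.q.getD b 0 * e.mult).sum : ℤ) : ℝ) * ld +
        (D.G.getD b 0 : ℤ)) / (D.L : ℝ) := by
    apply div_le_div_of_nonneg_right _ hL0.le
    linarith
  refine h2.trans (le_of_eq ?_)
  ring

end Vale.Agent.P030.H905.Rd
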