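import Vale.Agent.P030.H152.CellNorm
import Vale.Agent.P030.H3.EnergyN3

/-!
# P030, route N: from `s`-independent data to the determinant bound for all large `s`

Data: degrees `D0 b`, signed circle measures `μ b` (helper3), constants `γ b`; weights
`Wt b z = D0 b * U_b z + γ b`; cells (helper152) for the weights `s * Wt b` with constant
`C0 * exp (η s)`, partitions of unity (helper580) of size polynomial in the number of points.

`det_bound_of_cells` : for every `ε > 0` and all large `s`, all points and all vectors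
`|det| ≤ exp (-(E0 - ε) s²) ∏ N`.
-/

open Matrix Finset MeasureTheory Filter Topology

namespace Vale.Agent.P030.H905

open Vale.Agent.P030.H352 (Energy Flag adet ptM theoremN)
open Vale.Agent.P030.H152 (Cells PU Hyp cellN)
open Vale.Agent.P030.H3 (SCirc energy_N3)

variable {m : ℕ} {κc : Fin m → Type} [∀ b, Fintype (κc b)]

/-- the weight functions for `s = 1` -/
noncomputable def Wt (D0 : Fin m → ℕ) (μ : ∀ b, SCirc (κc b)) (γ : Fin m → ℝ) (b : Fin m)
    (z : ℂ) : ℝ := (D0 b : ℝ) * (μ b).U z + γ b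

/-- the energy of the data -/
noncomputable def E0 (D0 : Fin m → ℕ) (μ : ∀ b, SCirc (κc b)) (γ : Fin m → ℝ) : ℝ :=
  ∑ b, ((D0 b : ℝ) * γ b + (D0 b : ℝ) ^ 2 * (μ b).En / 2)

/-- the error of the energy at level `b` -/
noncomputable def err (D0 : Fin m → ℕ) (μ : ∀ b, SCirc (κc b)) (s K : ℕ) (δ : ℝ)
    (b : Fin m) : ℝ := (K : ℝ) * (((D0 b * s : ℕ) : ℝ) * (μ b).Wc * δ - Real.log (δ / 2))

theorem energy_s (D0 : Fin m → ℕ) (μ : ∀ b, SCirc (κc b)) (γ : Fin m → ℝ) (s K : ℕ) {δ : ℝ}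
    (hδ : 0 < δ) (hδ2 : δ ≤ 2) (b : Fin m) :
    Energy (fun z => (s : ℝ) * Wt D0 μ γ b z) (D0 b * s)
      ((s : ℝ) ^ 2 * ((D0 b : ℝ) * γ b + (D0 b : ℝ) ^ 2 * (μ b).En / 2) - err D0 μ s K δ b)
      K δ := by
  intro p hp a x hsep
  have h := energy_N3 (μ b) ((s : ℝ) * γ b) (D0 b * s) K hδ hδ2 p hp a x hsep
  refine h.trans (le_of_eq ?_)
  congr 2
  have e1 : ∀ z, ((D0 b * s : ℕ) : ℝ) * (μ b).U z + (s : ℝ) * γ b = (s : ℝ) * Wt D0 μ γ b z := by
    intro z
    unfold Wt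
    push_cast
    ring
  simp only [e1]
  unfold err
  push_cast
  ring

/-- `s (c₃ + c₄ log (D s + 1)) ≤ e s²` for large `s` -/
theorem small (c3 : ℝ) {c4 : ℝ} (hc4 : 0 ≤ c4) (D : ℕ) {e : ℝ} (he : 0 < e) :
    ∀ᶠ s : ℕ in atTop, (s : ℝ) * (c3 + c4 * Real.log (((D * s : ℕ) : ℝ) + 1)) ≤ e * (s : ℝ) ^ 2 := by
  have h1 : Tendsto (fun s : ℕ => Real.log ((s : ℝ) + 1) ^ 1 / (1 * ((s : ℝ) + 1) + (-1))) atTop
      (𝓝 0) := by
    have h2 := Real.tendsto_pow_log_div_mul_add_atTop 1 (-1) 1 one_ne_zero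
    exact h2.comp (tendsto_atTop_add_const_right _ 1 tendsto_natCast_atTop_atTop)
  have h2 : Tendsto (fun s : ℕ => (c3 + c4 * Real.log ((D : ℝ) + 1)) / (s : ℝ) +
      c4 * (Real.log ((s : ℝ) + 1) ^ 1 / (1 * ((s : ℝ) + 1) + (-1)))) atTop (𝓝 0) := by
    have h3 := (tendsto_const_div_atTop_nhds_zero_nat (c3 + c4 * Real.log ((D : ℝ) + 1))).add
      (h1.const_mul c4)
    simpa using h3
  filter_upwards [h2.eventually (gt_mem_nhds he), eventually_ge_atTop 1] with s hs hs1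
  have hs0 : (0 : ℝ) < s := by exact_mod_cast hs1
  have h4 : Real.log (((D * s : ℕ) : ℝ) + 1) ≤ Real.log ((D : ℝ) + 1) + Real.log ((s : ℝ) + 1) := by
    rw [← Real.log_mul (by positivity) (by positivity)]
    apply Real.log_le_log (by positivity)
    push_cast
    nlinarith [(Nat.cast_nonneg D : (0 : ℝ) ≤ D)]
  have h5 : (c3 + c4 * Real.log ((D : ℝ) + 1)) / (s : ℝ) +
      c4 * (Real.log ((s : ℝ) + 1) ^ 1 / (1 * ((s : ℝ) + 1) + (-1))) =
      (c3 + c4 * Real.log ((D : ℝ) + 1) + c4 * Real.log ((s : ℝ) + 1)) / s := by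
    rw [pow_one, one_mul, show (s : ℝ) + 1 + -1 = s by ring]
    ring
  rw [h5, div_lt_iff₀ hs0] at hs
  have h6 : c3 + c4 * Real.log (((D * s : ℕ) : ℝ) + 1) ≤ e * s := by
    have := mul_le_mul_of_nonneg_left h4 hc4
    linarith
  calc (s : ℝ) * (c3 + c4 * Real.log (((D * s : ℕ) : ℝ) + 1)) ≤ s * (e * s) :=
        mul_le_mul_of_nonneg_left h6 hs0.le
    _ = e * (s : ℝ) ^ 2 := by ring

section main

variable {ι : Type} [Fintype ι] [DecidableEq ι]

/-- the bound for one `s` -/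
theorem det_one (D0 : Fin m → ℕ) (hD0 : ∀ b c, b ≤ c → D0 c ≤ D0 b) (μ : ∀ b, SCirc (κc b))
    (γ : Fin m → ℝ) {s : ℕ} {C : ℝ} (G : Cells m ι (fun b z => (s : ℝ) * Wt D0 μ γ b z) C)
    (hC : 0 ≤ C) {R1 : ℝ} {ie : ι}
    (hlim : ∀ b, ∃ c : Fin m → ℂ, Tendsto (fun z => G.S ie z b) (cocompact ℂ) (𝓝 c))
    {K : ℕ} {L δ : ℝ} (hL : 0 ≤ L) (hδ : 0 < δ) (hδ2 : δ ≤ 2)
    (hPU : ∀ A : Finset ℂ, A.card ≤ K → Nonempty (PU G.O (Metric.closedBall 0 R1) ie L δ A))
    {M : ℝ} (hM1 : 1 ≤ M) (hM : (volume : Measure ℂ).real (Metric.closedBall 0 R1) ≤ M)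
    {τ : Type} [Fintype τ] [DecidableEq τ]
    (hτ : Fintype.card τ = Fintype.card (Σ b : Fin m, Fin (D0 b * s))) (hτK : Fintype.card τ ≤ K)
    (a : τ → ℂ) (v : τ → Fin m → ℂ) :
    adet (ptM (fun b => D0 b * s) a v) ≤
      ((2 * (1 + max C (Fintype.card ι * L * C)) ^ 2 * M) ^ K) ^ m *
        Real.exp (-((s : ℝ) ^ 2 * E0 D0 μ γ - ∑ b, err D0 μ s K δ b)) *
        ∏ i, G.N (a i) (v i) := by
  have hyp := G.hyp (isCompact_closedBall (0 : ℂ) R1) hM hlim hL hδ hPU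
    (Dg := fun b => D0 b * s) (fun b c hbc => Nat.mul_le_mul_right s (hD0 b c hbc))
    (fun b => energy_s D0 μ γ s K hδ hδ2 b)
  have hC' : 0 ≤ max C (Fintype.card ι * L * C) := le_max_of_le_left hC
  have hfl := hyp.flag hC'
  have h1 := theoremN hδ (by linarith) hM1 hfl τ hτ hτK a v
  refine h1.trans (le_of_eq ?_)
  congr 3
  unfold E0
  rw [Finset.sum_sub_distrib, Finset.mul_sum]

/-- **the determinant bound**: all points, all vectors, all large `s` -/
theorem det_bound_of_cells (D0 : Fin m → ℕ) (hD0 : ∀ b c, b ≤ c → D0 c ≤ D0 b)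
    (μ : ∀ b, SCirc (κc b)) (γ : Fin m → ℝ) {R1 : ℝ} {ie : ι}
    (S : ι → ℂ → Matrix (Fin m) (Fin m) ℂ)
    (hlim : ∀ b, ∃ c : Fin m → ℂ, Tendsto (fun z => S ie z b) (cocompact ℂ) (𝓝 c))
    {η C0 C1 δ0 : ℝ} (hη : 0 ≤ η) (hC0 : 0 ≤ C0) (hC1 : 0 ≤ C1) (hδ0 : 0 < δ0)
    (O : ι → Set ℂ)
    (hPU : ∀ K : ℕ, ∀ A : Finset ℂ, A.card ≤ K →
      Nonempty (PU O (Metric.closedBall 0 R1) ie (C1 * (K + 1)) (δ0 / (K + 1)) A))
    {ε : ℝ} (hε : 2 * m * (∑ b, (D0 b : ℝ)) * η < ε) :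
    ∀ᶠ s : ℕ in atTop, ∀ G : Cells m ι (fun b z => (s : ℝ) * Wt D0 μ γ b z)
      (C0 * Real.exp (η * s)), G.O = O → G.S = S →
      ∀ (τ : Type) [Fintype τ] [DecidableEq τ],
        Fintype.card τ = Fintype.card (Σ b : Fin m, Fin (D0 b * s)) →
        ∀ (a : τ → ℂ) (v : τ → Fin m → ℂ),
        adet (ptM (fun b => D0 b * s) a v) ≤
          Real.exp (-(E0 D0 μ γ - ε) * (s : ℝ) ^ 2) * ∏ i, G.N (a i) (v i) := by
  set D : ℕ := ∑ b, D0 b with hDdef
  set M : ℝ := max 1 ((volume : Measure ℂ).real (Metric.closedBall 0 R1)) with hMdef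
  have hM1 : 1 ≤ M := le_max_left _ _
  -- shrink `δ0`
  set δ1 : ℝ := min δ0 2 with hδ1def
  have hδ1 : 0 < δ1 := lt_min hδ0 two_pos
  set P : ℝ := 1 + C0 + Fintype.card ι * C1 * C0 with hPdef
  have hP1 : 1 ≤ P := by
    have : 0 ≤ (Fintype.card ι : ℝ) * C1 * C0 := by positivity
    linarith
  set c2 : ℝ := ∑ b, (D0 b : ℝ) * (μ b).Wc * δ1 with hc2
  set e : ℝ := ε - 2 * m * D * η with hedef
  have he : 0 < e := by
    have : ((D : ℕ) : ℝ) = ∑ b, (D0 b : ℝ) := by rw [hDdef]; push_cast; rfl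
    rw [hedef, this]
    linarith
  have hsm := small (m * D * (Real.log (2 * M) + 2 * Real.log P) + c2 + m * D * Real.log (2 / δ1))
    (c4 := 3 * m * D) (by positivity) D he
  filter_upwards [hsm] with s hs
  generalize hCdef : C0 * Real.exp (η * s) = C
  intro G hGO hGS τ _ _ hτ a v
  subst hGO hGS
  have hs0 : (0 : ℝ) ≤ s := Nat.cast_nonneg s
  set K : ℕ := D * s with hKdef
  have hcard : Fintype.card (Σ b : Fin m, Fin (D0 b * s)) = K := by
    rw [Fintype.card_sigma, hKdef, hDdef, Finset.sum_mul]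
    simp
  have hC : 0 ≤ C := by rw [← hCdef]; positivity
  have hK0 : (0 : ℝ) < (K : ℝ) + 1 := by positivity
  set δ : ℝ := δ1 / (K + 1) with hδdef
  have hδ : 0 < δ := by positivity
  have hδ2 : δ ≤ 2 := by
    rw [hδdef, div_le_iff₀ hK0]
    have : δ1 ≤ 2 := min_le_right _ _
    nlinarith [(Nat.cast_nonneg K : (0 : ℝ) ≤ K)]
  have hPU' : ∀ A : Finset ℂ, A.card ≤ K →
      Nonempty (PU G.O (Metric.closedBall 0 R1) ie (C1 * (K + 1)) δ A) := by
    intro A hA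
    obtain ⟨P'⟩ := hPU K A hA
    refine ⟨{ P' with sep := fun k a ha z hz => P'.sep k a ha z (lt_of_lt_of_le hz ?_) }⟩
    rw [hδdef]
    exact div_le_div_of_nonneg_right (min_le_left _ _) hK0.le
  have h1 := det_one D0 hD0 μ γ G hC hlim (K := K) (L := C1 * (K + 1)) (by positivity) hδ hδ2
    hPU' hM1 (le_max_right _ _) hτ (le_of_eq (hτ.trans hcard)) a v
  refine h1.trans ?_
  have hN : 0 ≤ ∏ i, G.N (a i) (v i) := Finset.prod_nonneg fun i _ => apply_nonneg _ _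
  refine mul_le_mul_of_nonneg_right ?_ hN
  set C' : ℝ := max C (Fintype.card ι * (C1 * (K + 1)) * C) with hC'def
  have hC' : 0 ≤ C' := le_max_of_le_left hC
  set B : ℝ := 2 * (1 + C') ^ 2 * M with hBdef
  have hB : 0 < B := by positivity
  -- bound of the constant
  have hexp1 : 1 ≤ Real.exp (η * s) := Real.one_le_exp (by positivity)
  have hC'le : 1 + C' ≤ P * (K + 1) * Real.exp (η * s) := by
    have h2 : C' ≤ C + Fintype.card ι * (C1 * (K + 1)) * C :=
      max_le (by have : 0 ≤ (Fintype.card ι : ℝ) * (C1 * (K + 1)) * C := by positivity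
                 linarith) (by linarith)
    have hK1 : (1 : ℝ) ≤ (K : ℝ) + 1 := by linarith [(Nat.cast_nonneg K : (0 : ℝ) ≤ K)]
    have h3 : (1 : ℝ) ≤ (K + 1) * Real.exp (η * s) := one_le_mul_of_one_le_of_one_le hK1 hexp1
    have h4 : C ≤ C0 * ((K + 1) * Real.exp (η * s)) := by
      rw [← hCdef]
      refine mul_le_mul_of_nonneg_left ?_ hC0
      exact le_mul_of_one_le_left (Real.exp_pos _).le hK1
    calc 1 + C' ≤ 1 + (C + Fintype.card ι * (C1 * (K + 1)) * C) := by linarith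
      _ ≤ (K + 1) * Real.exp (η * s) + (C0 * ((K + 1) * Real.exp (η * s)) +
          Fintype.card ι * (C1 * (K + 1)) * C) := by linarith
      _ = P * (K + 1) * Real.exp (η * s) := by rw [← hCdef, hPdef]; ring
  have hlogB : Real.log B ≤ Real.log (2 * M) + 2 * Real.log P + 2 * Real.log ((K : ℝ) + 1) +
      2 * (η * s) := by
    have h2 : B ≤ 2 * M * (P * (K + 1) * Real.exp (η * s)) ^ 2 := by
      have h3 : (1 + C') ^ 2 ≤ (P * (K + 1) * Real.exp (η * s)) ^ 2 :=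
        pow_le_pow_left₀ (by linarith) hC'le 2
      calc B = 2 * M * (1 + C') ^ 2 := by rw [hBdef]; ring
        _ ≤ 2 * M * (P * (K + 1) * Real.exp (η * s)) ^ 2 :=
          mul_le_mul_of_nonneg_left h3 (by linarith)
    refine (Real.log_le_log hB h2).trans (le_of_eq ?_)
    have hP0 : P ≠ 0 := by linarith
    have h4 : Real.log (P * (K + 1) * Real.exp (η * s)) =
        Real.log P + Real.log ((K : ℝ) + 1) + η * s := by
      rw [Real.log_mul (mul_ne_zero hP0 hK0.ne') (Real.exp_pos _).ne', Real.log_mul hP0 hK0.ne',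
        Real.log_exp]
    have h5 : (P * (K + 1) * Real.exp (η * s)) ^ 2 ≠ 0 :=
      pow_ne_zero _ (mul_ne_zero (mul_ne_zero hP0 hK0.ne') (Real.exp_pos _).ne')
    rw [Real.log_mul (by linarith) h5, Real.log_pow, h4]
    push_cast
    ring
  have hpow : (B ^ K) ^ m = Real.exp ((K : ℝ) * m * Real.log B) := by
    rw [← pow_mul, ← Real.exp_log hB, ← Real.exp_nat_mul, Real.exp_log hB]
    push_cast
    ring_nf
  rw [hpow, ← Real.exp_add]
  apply Real.exp_le_exp.2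
  -- the error terms
  have herr : ∑ b, err D0 μ s K δ b ≤ s * c2 + m * (K * (Real.log (2 / δ1) +
      Real.log ((K : ℝ) + 1))) := by
    have h2 : ∀ b ∈ (Finset.univ : Finset (Fin m)), err D0 μ s K δ b ≤
        s * ((D0 b : ℝ) * (μ b).Wc * δ1) + K * (Real.log (2 / δ1) + Real.log ((K : ℝ) + 1)) := by
      intro b _
      have h3 : (K : ℝ) * δ ≤ δ1 := by
        rw [hδdef, ← mul_div_assoc, div_le_iff₀ hK0]
        nlinarith [(Nat.cast_nonneg K : (0 : ℝ) ≤ K)]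
      have h4 : -Real.log (δ / 2) = Real.log (2 / δ1) + Real.log ((K : ℝ) + 1) := by
        rw [← Real.log_inv, ← Real.log_mul (by positivity) (by positivity), hδdef]
        congr 1
        field_simp
      unfold err
      rw [sub_eq_add_neg, mul_add, h4]
      refine add_le_add ?_ le_rfl
      have hw := (μ b).Wc_nonneg
      have h5 : 0 ≤ (((D0 b * s : ℕ) : ℝ)) * (μ b).Wc := by positivity
      calc (K : ℝ) * (((D0 b * s : ℕ) : ℝ) * (μ b).Wc * δ)
          = (((D0 b * s : ℕ) : ℝ) * (μ b).Wc) * ((K : ℝ) * δ) := by ring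
        _ ≤ (((D0 b * s : ℕ) : ℝ) * (μ b).Wc) * δ1 := mul_le_mul_of_nonneg_left h3 h5
        _ = s * ((D0 b : ℝ) * (μ b).Wc * δ1) := by push_cast; ring
    refine (Finset.sum_le_sum h2).trans (le_of_eq ?_)
    rw [Finset.sum_add_distrib, ← Finset.mul_sum, Finset.sum_const, Finset.card_univ,
      Fintype.card_fin, nsmul_eq_mul, hc2]
  have hKm : (0 : ℝ) ≤ (K : ℝ) * m := by positivity
  have h7 := mul_le_mul_of_nonneg_left hlogB hKm
  have hKr : (K : ℝ) = D * s := by rw [hKdef]; push_cast; ring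
  have hfin : (K : ℝ) * m * (Real.log (2 * M) + 2 * Real.log P + 2 * Real.log ((K : ℝ) + 1) +
      2 * (η * s)) + (s * c2 + m * (K * (Real.log (2 / δ1) + Real.log ((K : ℝ) + 1)))) ≤
      ε * (s : ℝ) ^ 2 := by
    have h8 : (K : ℝ) * m * (Real.log (2 * M) + 2 * Real.log P + 2 * Real.log ((K : ℝ) + 1) +
        2 * (η * s)) + (s * c2 + m * (K * (Real.log (2 / δ1) + Real.log ((K : ℝ) + 1)))) =
        (s : ℝ) * ((m * D * (Real.log (2 * M) + 2 * Real.log P) + c2 +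
          m * D * Real.log (2 / δ1)) + 3 * m * D * Real.log ((K : ℝ) + 1)) +
          2 * m * D * η * (s : ℝ) ^ 2 := by
      generalize Real.log ((K : ℝ) + 1) = l
      rw [hKr]
      ring
    rw [h8]
    have h9 := hs
    rw [hedef] at h9
    linarith
  linarith

end main

end Vale.Agent.P030.H905
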