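import Vale.Agent.P030.H3.Mutual

/-!
# P030: probability mixtures of circles, symmetric mutual averages

`Mix` : finite mixtures (nonnegative weights, total one) of circles; `Mix.U` the potential,
`Mix.avg f` the mean of `f`;  `Mix.avg_comm : M.avg N.U = N.avg M.U`.
-/

namespace Vale.Agent.P030.H905

open Finset Filter Topology MeasureTheory Real
open Vale.Agent.P030.H3 (SCirc mE circleAverage_log_norm_sub)

section comm

variable {c c' : ℂ} {ρ ρ' : ℝ}

theorem abs_log_eq (y : ℝ) : |Real.log y| = 2 * posLog y - Real.log y := by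
  show |Real.log y| = 2 * max 0 (Real.log y) - Real.log y
  rcases le_total 0 (Real.log y) with h | h
  · rw [abs_of_nonneg h, max_eq_right h]; ring
  · rw [abs_of_nonpos h, max_eq_left h]; ring

/-- the kernel on the torus -/
noncomputable def ker (c c' : ℂ) (ρ ρ' : ℝ) (p : ℝ × ℝ) : ℝ :=
  Real.log ‖circleMap c' ρ' p.2 - circleMap c ρ p.1‖

theorem measurable_ker : Measurable (ker c c' ρ ρ') := by
  unfold ker
  refine Real.measurable_log.comp (Continuous.measurable ?_)
  exact ((continuous_circleMap c' ρ').comp continuous_snd |>.sub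
    ((continuous_circleMap c ρ).comp continuous_fst)).norm

theorem intervalIntegrable_ker (z : ℂ) :
    IntervalIntegrable (fun φ => Real.log ‖circleMap c' ρ' φ - z‖) volume 0 (2 * π) :=
  circleIntegrable_log_norm_sub_const (c := c') (a := z) ρ'

theorem integral_ker (hρ' : 0 < ρ') (z : ℂ) :
    ∫ φ in (0 : ℝ)..(2 * π), Real.log ‖circleMap c' ρ' φ - z‖ =
      2 * π * Real.log (max ρ' ‖c' - z‖) := by
  have h := circleAverage_log_norm_sub z c' hρ'
  rw [circleAverage_def, smul_eq_mul] at h
  have hpi : (2 * π) ≠ 0 := by positivity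
  rw [← h, mul_inv_cancel_left₀ hpi]

theorem integrable_ker (hρ : 0 < ρ) (hρ' : 0 < ρ') :
    Integrable (ker c c' ρ ρ')
      ((volume.restrict (Set.Ioc 0 (2 * π))).prod (volume.restrict (Set.Ioc 0 (2 * π)))) := by
  have hpi : (0 : ℝ) ≤ 2 * π := by positivity
  rw [integrable_prod_iff measurable_ker.aestronglyMeasurable]
  refine ⟨Filter.Eventually.of_forall fun θ => ?_, ?_⟩
  · have h := intervalIntegrable_ker (c' := c') (ρ' := ρ') (circleMap c ρ θ)
    rw [intervalIntegrable_iff_integrableOn_Ioc_of_le hpi] at h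
    exact h
  · set B : ℝ := ‖c' - c‖ + ρ + ρ' with hB
    have hB0 : 0 ≤ B := by positivity
    set C : ℝ := 2 * (2 * π * posLog B) + 2 * π * |Real.log ρ'| with hC
    refine Integrable.of_bound (C := C)
      (measurable_ker.aestronglyMeasurable.norm.integral_prod_right' ) ?_
    refine Filter.Eventually.of_forall fun θ => ?_
    set z : ℂ := circleMap c ρ θ with hz
    have hint := intervalIntegrable_ker (c' := c') (ρ' := ρ') z
    have h0 : 0 ≤ ∫ y in Set.Ioc 0 (2 * π), ‖ker c c' ρ ρ' (θ, y)‖ :=
      integral_nonneg fun _ => norm_nonneg _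
    rw [Real.norm_eq_abs, abs_of_nonneg h0]
    have hz1 : ‖z - c‖ = ρ := by
      rw [hz, circleMap_sub_center, norm_circleMap_zero, abs_of_pos hρ]
    have h1 : ∀ φ, ‖circleMap c' ρ' φ - z‖ ≤ B := by
      intro φ
      have h2 : ‖circleMap c' ρ' φ - c'‖ = ρ' := by
        rw [circleMap_sub_center, norm_circleMap_zero, abs_of_pos hρ']
      have h3 : circleMap c' ρ' φ - z = (circleMap c' ρ' φ - c') + (c' - c) - (z - c) := by ring
      rw [h3]
      refine (norm_sub_le _ _).trans ?_
      refine (add_le_add (norm_add_le _ _) le_rfl).trans ?_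
      rw [h2, hz1, hB]
      linarith
    have h2 : ∫ y in Set.Ioc 0 (2 * π), ‖ker c c' ρ ρ' (θ, y)‖ ≤
        ∫ y in Set.Ioc 0 (2 * π), (2 * posLog B - Real.log ‖circleMap c' ρ' y - z‖) := by
      rw [intervalIntegrable_iff_integrableOn_Ioc_of_le hpi] at hint
      refine integral_mono (hint.norm) ((integrable_const _).sub hint) fun φ => ?_
      show |Real.log ‖circleMap c' ρ' φ - z‖| ≤ _
      rw [abs_log_eq]
      have h4 : posLog ‖circleMap c' ρ' φ - z‖ ≤ posLog B :=
        monotoneOn_posLog (norm_nonneg _) hB0 (h1 φ)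
      linarith
    refine h2.trans ?_
    have h5 : ∫ y in Set.Ioc 0 (2 * π), (2 * posLog B - Real.log ‖circleMap c' ρ' y - z‖) =
        ∫ y in (0 : ℝ)..(2 * π), (2 * posLog B - Real.log ‖circleMap c' ρ' y - z‖) := by
      rw [intervalIntegral.integral_of_le hpi]
    rw [h5, intervalIntegral.integral_sub intervalIntegrable_const hint, integral_ker hρ',
      intervalIntegral.integral_const, smul_eq_mul, hC]
    have h6 : -|Real.log ρ'| ≤ Real.log (max ρ' ‖c' - z‖) := by
      have h7 : Real.log ρ' ≤ Real.log (max ρ' ‖c' - z‖) := Real.log_le_log hρ' (le_max_left _ _)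
      have h8 := neg_abs_le (Real.log ρ')
      linarith
    have h9 := mul_le_mul_of_nonneg_left h6 hpi
    linarith

/-- **the mutual energy of two circles is symmetric** -/
theorem mE_comm (hρ : 0 < ρ) (hρ' : 0 < ρ') : mE c' ρ' c ρ = mE c ρ c' ρ' := by
  have hpi : (0 : ℝ) ≤ 2 * π := by positivity
  have key := integral_integral_swap (f := fun θ φ => ker c c' ρ ρ' (θ, φ))
    (μ := volume.restrict (Set.Ioc 0 (2 * π))) (ν := volume.restrict (Set.Ioc 0 (2 * π)))
    (by simpa [Function.uncurry_def] using integrable_ker hρ hρ')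
  have e1 : ∀ θ, ∫ φ in Set.Ioc 0 (2 * π), ker c c' ρ ρ' (θ, φ) =
      2 * π * Real.log (max ρ' ‖circleMap c ρ θ - c'‖) := by
    intro θ
    rw [← intervalIntegral.integral_of_le hpi]
    show ∫ φ in (0 : ℝ)..(2 * π), Real.log ‖circleMap c' ρ' φ - circleMap c ρ θ‖ = _
    rw [integral_ker hρ', norm_sub_rev c']
  have e2 : ∀ φ, ∫ θ in Set.Ioc 0 (2 * π), ker c c' ρ ρ' (θ, φ) =
      2 * π * Real.log (max ρ ‖circleMap c' ρ' φ - c‖) := by
    intro φ
    rw [← intervalIntegral.integral_of_le hpi]
    show ∫ θ in (0 : ℝ)..(2 * π), Real.log ‖circleMap c' ρ' φ - circleMap c ρ θ‖ = _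
    have : ∀ θ, Real.log ‖circleMap c' ρ' φ - circleMap c ρ θ‖ =
        Real.log ‖circleMap c ρ θ - circleMap c' ρ' φ‖ := fun θ => by rw [norm_sub_rev]
    simp only [this]
    rw [integral_ker hρ, norm_sub_rev c]
  simp only [e1, e2] at key
  rw [← intervalIntegral.integral_of_le hpi, ← intervalIntegral.integral_of_le hpi,
    intervalIntegral.integral_const_mul, intervalIntegral.integral_const_mul] at key
  have hne : (2 * π) ≠ 0 := by positivity
  have key' := mul_left_cancel₀ hne key
  unfold mE
  rw [circleAverage_def, circleAverage_def, key']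

end comm

/-- a finite probability mixture of circles -/
structure Mix where
  /-- number of circles -/
  n : ℕ
  /-- weights -/
  w : Fin n → ℝ
  /-- centres -/
  x : Fin n → ℂ
  /-- radii -/
  ρ : Fin n → ℝ
  w_nonneg : ∀ k, 0 ≤ w k
  w_sum : ∑ k, w k = 1
  ρ_pos : ∀ k, 0 < ρ k

namespace Mix

variable (M N : Mix)

/-- the potential -/
noncomputable def U (z : ℂ) : ℝ := ∑ k, M.w k * Real.log (max (M.ρ k) ‖z - M.x k‖)

/-- the mean -/
noncomputable def avg (f : ℂ → ℝ) : ℝ := ∑ k, M.w k * circleAverage f (M.x k) (M.ρ k)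

theorem continuous_U : Continuous M.U := by
  unfold U
  refine continuous_finsetSum _ fun k _ => continuous_const.mul ?_
  refine Continuous.log (by fun_prop) fun z => ?_
  exact (lt_max_of_lt_left (M.ρ_pos k)).ne'

theorem avg_comm : M.avg N.U = N.avg M.U := by
  have key : ∀ M N : Mix, M.avg N.U =
      ∑ k, ∑ l, M.w k * N.w l * mE (N.x l) (N.ρ l) (M.x k) (M.ρ k) := by
    intro M N
    unfold avg
    refine Finset.sum_congr rfl fun k _ => ?_
    have h1 : circleAverage N.U (M.x k) (M.ρ k) =
        ∑ l, N.w l * mE (N.x l) (N.ρ l) (M.x k) (M.ρ k) := by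
      have h2 : N.U = ∑ l, fun z => N.w l * Real.log (max (N.ρ l) ‖z - N.x l‖) := by
        funext z
        simp [U]
      rw [h2, circleAverage_sum]
      · refine Finset.sum_congr rfl fun l _ => ?_
        have := circleAverage_fun_smul (a := N.w l)
          (f := fun z => Real.log (max (N.ρ l) ‖z - N.x l‖)) (c := M.x k) (R := M.ρ k)
        simpa only [smul_eq_mul, mE] using this
      · intro l _
        exact (ContinuousOn.circleIntegrable' (Continuous.continuousOn
          (continuous_const.mul (Continuous.log (by fun_prop) fun z =>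
            (lt_max_of_lt_left (N.ρ_pos l)).ne'))))
    rw [h1, Finset.mul_sum]
    exact Finset.sum_congr rfl fun l _ => by ring
  rw [key M N, key N M, Finset.sum_comm]
  refine Finset.sum_congr rfl fun l _ => Finset.sum_congr rfl fun k _ => ?_
  rw [mE_comm (M.ρ_pos k) (N.ρ_pos l)]
  ring

variable {M}

theorem circleIntegrable_of_continuous {f : ℂ → ℝ} (hf : Continuous f) (c : ℂ) (R : ℝ) :
    CircleIntegrable f c R := hf.continuousOn.circleIntegrable'

theorem avg_sub_le {f g : ℂ → ℝ} (hf : Continuous f) (hg : Continuous g) {e : ℝ}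
    (h : ∀ z, |f z - g z| ≤ e) : |M.avg f - M.avg g| ≤ e := by
  have h1 : ∀ k, |circleAverage f (M.x k) (M.ρ k) - circleAverage g (M.x k) (M.ρ k)| ≤ e := by
    intro k
    have hfi := circleIntegrable_of_continuous hf (M.x k) (M.ρ k)
    have hgi := circleIntegrable_of_continuous hg (M.x k) (M.ρ k)
    rw [abs_le]
    constructor
    · have h2 : circleAverage (fun z => g z - e) (M.x k) (M.ρ k) ≤
          circleAverage f (M.x k) (M.ρ k) := by
        refine circleAverage_mono (circleIntegrable_of_continuous (hg.sub continuous_const) _ _)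
          hfi fun z _ => ?_
        have := (abs_le.1 (h z)).1
        linarith
      have h3 : circleAverage (fun z => g z - e) (M.x k) (M.ρ k) =
          circleAverage g (M.x k) (M.ρ k) - e := by
        have := circleAverage_sub hgi (circleIntegrable_const e (M.x k) (M.ρ k))
        rw [circleAverage_const] at this
        exact this
      linarith
    · have h2 : circleAverage f (M.x k) (M.ρ k) ≤
          circleAverage (fun z => g z + e) (M.x k) (M.ρ k) := by
        refine circleAverage_mono hfi
          (circleIntegrable_of_continuous (hg.add continuous_const) _ _) fun z _ => ?_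
        have := (abs_le.1 (h z)).2
        linarith
      have h3 : circleAverage (fun z => g z + e) (M.x k) (M.ρ k) =
          circleAverage g (M.x k) (M.ρ k) + e := by
        have := circleAverage_add hgi (circleIntegrable_const e (M.x k) (M.ρ k))
        rw [circleAverage_const] at this
        exact this
      linarith
  unfold avg
  rw [← Finset.sum_sub_distrib]
  refine (Finset.abs_sum_le_sum_abs _ _).trans ?_
  calc ∑ k, |M.w k * circleAverage f (M.x k) (M.ρ k) - M.w k * circleAverage g (M.x k) (M.ρ k)|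
      = ∑ k, M.w k * |circleAverage f (M.x k) (M.ρ k) - circleAverage g (M.x k) (M.ρ k)| := by
        refine Finset.sum_congr rfl fun k _ => ?_
        rw [← mul_sub, abs_mul, abs_of_nonneg (M.w_nonneg k)]
    _ ≤ ∑ k, M.w k * e := Finset.sum_le_sum fun k _ =>
        mul_le_mul_of_nonneg_left (h1 k) (M.w_nonneg k)
    _ = e := by rw [← Finset.sum_mul, M.w_sum, one_mul]

end Mix

end Vale.Agent.P030.H905
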