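import Vale.Agent.P030.H905.PotOf
import Vale.Agent.P030.H905.MixE

/-!
# P030, route N: elements and their mixtures

`Elt` : a potential which is a uniform limit (on the whole plane) of potentials of probability
mixtures of circles;  `Elt.I` : mutual energy of two elements;  `mixPot` : signed mixtures of
elements of total mass one are potentials in the sense of `Pot`.
-/

open Finset Filter Topology MeasureTheory Real

namespace Vale.Agent.P030.H905

open Vale.Agent.P030.H3 (SCirc)

/-- an element: uniform limit of mixtures of circles -/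
structure Elt where
  /-- the potential -/
  U : ℂ → ℝ
  cont : Continuous U
  approx : ∀ ε : ℝ, 0 < ε → ∃ M : Mix, ∀ z, |M.U z - U z| ≤ ε

/-- continuity is automatic -/
theorem continuous_of_mix {U : ℂ → ℝ} (h : ∀ ε : ℝ, 0 < ε → ∃ M : Mix, ∀ z, |M.U z - U z| ≤ ε) :
    Continuous U := by
  refine continuous_of_uniform_approx_of_continuous fun u hu => ?_
  obtain ⟨ε, hε, hu'⟩ := Metric.mem_uniformity_dist.1 hu
  obtain ⟨M, hM⟩ := h (ε / 2) (by positivity)
  refine ⟨M.U, M.continuous_U, fun z => hu' ?_⟩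
  rw [dist_comm, Real.dist_eq]
  linarith [hM z]

namespace Elt

/-- an element from its approximations -/
def mk' (U : ℂ → ℝ) (h : ∀ ε : ℝ, 0 < ε → ∃ M : Mix, ∀ z, |M.U z - U z| ≤ ε) : Elt :=
  ⟨U, continuous_of_mix h, h⟩

variable (E F : Elt)

/-- `M` approximates `F` up to `e` -/
def Near (M : Mix) (e : ℝ) : Prop := ∀ z, |M.U z - F.U z| ≤ e

variable {E F}

theorem near_near {M N : Mix} {e d : ℝ} (hM : F.Near M e) (hN : E.Near N d) :
    |M.avg E.U - N.avg F.U| ≤ d + e := by
  have h1 : |M.avg N.U - M.avg E.U| ≤ d := Mix.avg_sub_le N.continuous_U E.cont hN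
  have h2 : |N.avg M.U - N.avg F.U| ≤ e := Mix.avg_sub_le M.continuous_U F.cont hM
  rw [Mix.avg_comm] at h1
  have e1 : M.avg E.U - N.avg F.U = (N.avg M.U - N.avg F.U) - (N.avg M.U - M.avg E.U) := by ring
  rw [e1]
  refine (abs_sub _ _).trans ?_
  linarith

theorem near_near' {M M' : Mix} {e e' : ℝ} (hM : F.Near M e) (hM' : F.Near M' e') :
    |M.avg E.U - M'.avg E.U| ≤ e + e' := by
  refine le_of_forall_pos_le_add fun δ hδ => ?_
  obtain ⟨N, hN⟩ := E.approx (δ / 2) (by positivity)
  have h1 := near_near hM hN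
  have h2 := near_near hM' hN
  have e1 : M.avg E.U - M'.avg E.U = (M.avg E.U - N.avg F.U) - (M'.avg E.U - N.avg F.U) := by ring
  rw [e1]
  refine (abs_sub _ _).trans ?_
  linarith

variable (E F)

/-- the set of lower bounds of the mutual energy -/
def lowSet : Set ℝ := {r | ∃ (e : ℝ) (M : Mix), F.Near M e ∧ r = M.avg E.U - e}

/-- **the mutual energy** -/
noncomputable def I : ℝ := sSup (lowSet E F)

variable {E F}

theorem I_spec {M : Mix} {e : ℝ} (hM : F.Near M e) : |M.avg E.U - E.I F| ≤ e := by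
  have hle : ∀ r ∈ lowSet E F, ∀ {M : Mix} {e : ℝ}, F.Near M e → r ≤ M.avg E.U + e := by
    rintro r ⟨e', M', hM', rfl⟩ M e hM
    have := (abs_le.1 (near_near' (E := E) hM' hM)).2
    linarith
  have h1 : M.avg E.U - e ≤ E.I F := le_csSup ⟨M.avg E.U + e, fun r hr => hle r hr hM⟩ ⟨e, M, hM, rfl⟩
  have h2 : E.I F ≤ M.avg E.U + e := csSup_le ⟨_, e, M, hM, rfl⟩ fun r hr => hle r hr hM
  rw [abs_le]
  constructor <;> linarith

theorem I_comm : E.I F = F.I E := by
  refine eq_of_abs_sub_nonpos ?_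
  refine le_of_forall_pos_le_add fun δ hδ => ?_
  obtain ⟨N, hN⟩ := E.approx (δ / 4) (by positivity)
  obtain ⟨M, hM⟩ := F.approx (δ / 4) (by positivity)
  have h1 := near_near (E := E) (F := F) hM hN
  have h2 := I_spec (E := E) (F := F) hM
  have h3 := I_spec (E := F) (F := E) hN
  rw [abs_le] at *
  constructor <;> linarith

/-- the mutual energy along an approximating sequence -/
theorem I_eq_of_tendsto {M : ℕ → Mix} {e : ℕ → ℝ} (he : Tendsto e atTop (𝓝 0))
    (hM : ∀ᶠ n in atTop, F.Near (M n) (e n)) {l : ℝ}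
    (hl : Tendsto (fun n => (M n).avg E.U) atTop (𝓝 l)) : E.I F = l := by
  refine tendsto_nhds_unique ?_ hl
  refine tendsto_iff_norm_sub_tendsto_zero.2 ?_
  refine squeeze_zero' (Eventually.of_forall fun _ => norm_nonneg _) ?_ he
  filter_upwards [hM] with n hn
  exact I_spec hn

/-- the mutual energy, form with `ε` -/
theorem I_eq_of_forall {l : ℝ} (h : ∀ ε : ℝ, 0 < ε → ∃ M : Mix, F.Near M ε ∧ |M.avg E.U - l| ≤ ε) :
    E.I F = l := by
  refine eq_of_abs_sub_nonpos ?_
  refine le_of_forall_pos_le_add fun δ hδ => ?_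
  obtain ⟨M, hM, hl⟩ := h (δ / 2) (by positivity)
  have h1 := I_spec (E := E) hM
  rw [abs_le] at *
  constructor <;> linarith

/-- the mutual energy depends on the potential in a monotone way (lower bounds) -/
theorem I_mono {E' : Elt} (h : ∀ z, E.U z ≤ E'.U z) : E.I F ≤ E'.I F := by
  refine le_of_forall_pos_le_add fun δ hδ => ?_
  obtain ⟨M, hM⟩ := F.approx (δ / 2) (by positivity)
  have h1 := (abs_le.1 (I_spec (E := E) hM)).1
  have h2 := (abs_le.1 (I_spec (E := E') hM)).2
  have h3 : M.avg E.U ≤ M.avg E'.U := by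
    unfold Mix.avg
    refine Finset.sum_le_sum fun k _ => mul_le_mul_of_nonneg_left ?_ (M.w_nonneg k)
    exact circleAverage_mono (Mix.circleIntegrable_of_continuous E.cont _ _)
      (Mix.circleIntegrable_of_continuous E'.cont _ _) fun z _ => h z
  linarith

/-- one circle -/
noncomputable def circ (c : ℂ) (ρ : ℝ) (hρ : 0 < ρ) : Elt :=
  mk' (fun z => Real.log (max ρ ‖z - c‖)) fun ε hε =>
    ⟨⟨1, fun _ => 1, fun _ => c, fun _ => ρ, fun _ => zero_le_one, by simp, fun _ => hρ⟩,
      fun z => by simp [Mix.U, hε.le]⟩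

theorem circ_U (c : ℂ) (ρ : ℝ) (hρ : 0 < ρ) (z : ℂ) :
    (circ c ρ hρ).U z = Real.log (max ρ ‖z - c‖) := rfl

theorem I_circ (c : ℂ) (ρ : ℝ) (hρ : 0 < ρ) : E.I (circ c ρ hρ) = circleAverage E.U c ρ := by
  refine I_eq_of_forall fun ε hε => ?_
  refine ⟨⟨1, fun _ => 1, fun _ => c, fun _ => ρ, fun _ => zero_le_one, by simp, fun _ => hρ⟩,
      fun z => by simp [Mix.U, hε.le, circ_U], ?_⟩
  simp [Mix.avg, hε.le]

/-- a finite probability mixture of elements is an element -/
theorem mix_approx {J : Type} [Fintype J] (E : J → Elt) (w : J → ℝ) (hw : ∀ j, 0 ≤ w j)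
    (hw1 : ∑ j, w j = 1) (ε : ℝ) (hε : 0 < ε) :
    ∃ M : Mix, ∀ z, |M.U z - ∑ j, w j * (E j).U z| ≤ ε := by
  classical
  choose M hM using fun j => (E j).approx ε hε
  let κ := Σ j, Fin (M j).n
  let e : Fin (Fintype.card κ) ≃ κ := (Fintype.equivFin κ).symm
  refine ⟨⟨Fintype.card κ, fun k => w (e k).1 * (M (e k).1).w (e k).2,
    fun k => (M (e k).1).x (e k).2, fun k => (M (e k).1).ρ (e k).2,
    fun k => mul_nonneg (hw _) ((M (e k).1).w_nonneg _), ?_, fun k => (M (e k).1).ρ_pos _⟩, ?_⟩
  · rw [e.sum_comp (fun p : κ => w p.1 * (M p.1).w p.2), Fintype.sum_sigma]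
    simp only [← Finset.mul_sum, (M _).w_sum, mul_one, hw1]
  · intro z
    have h1 : Mix.U ⟨Fintype.card κ, fun k => w (e k).1 * (M (e k).1).w (e k).2,
        fun k => (M (e k).1).x (e k).2, fun k => (M (e k).1).ρ (e k).2,
        fun k => mul_nonneg (hw _) ((M (e k).1).w_nonneg _),
        (by rw [e.sum_comp (fun p : κ => w p.1 * (M p.1).w p.2), Fintype.sum_sigma]
            simp only [← Finset.mul_sum, (M _).w_sum, mul_one, hw1]),
        fun k => (M (e k).1).ρ_pos _⟩ z = ∑ j, w j * (M j).U z := by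
      unfold Mix.U
      show ∑ k, w (e k).1 * (M (e k).1).w (e k).2 *
        Real.log (max ((M (e k).1).ρ (e k).2) ‖z - (M (e k).1).x (e k).2‖) = _
      rw [e.sum_comp (fun p : κ => w p.1 * (M p.1).w p.2 *
        Real.log (max ((M p.1).ρ p.2) ‖z - (M p.1).x p.2‖)), Fintype.sum_sigma]
      simp only [Finset.mul_sum, mul_assoc]
    rw [h1, ← Finset.sum_sub_distrib]
    refine (Finset.abs_sum_le_sum_abs _ _).trans ?_
    calc ∑ j, |w j * (M j).U z - w j * (E j).U z| = ∑ j, w j * |(M j).U z - (E j).U z| := by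
          refine Finset.sum_congr rfl fun j _ => ?_
          rw [← mul_sub, abs_mul, abs_of_nonneg (hw j)]
      _ ≤ ∑ j, w j * ε := Finset.sum_le_sum fun j _ =>
          mul_le_mul_of_nonneg_left (hM j z) (hw j)
      _ = ε := by rw [← Finset.sum_mul, hw1, one_mul]

end Elt

section mix

variable {J : Type} [Fintype J] (E : J → Elt) (q : J → ℝ)

/-- the potential of a signed mixture -/
noncomputable def mixU (z : ℂ) : ℝ := ∑ j, q j * (E j).U z

/-- the energy of a signed mixture -/
noncomputable def mixEn : ℝ := ∑ j, ∑ l, q j * q l * (E j).I (E l)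

theorem continuous_mixU : Continuous (mixU E q) := by
  unfold mixU
  exact continuous_finsetSum _ fun j _ => continuous_const.mul (E j).cont

/-- approximation of a signed mixture by signed circles -/
theorem mix_signed (hq : ∑ j, q j = 1) {ε : ℝ} (hε : 0 < ε) :
    ∃ (κ : Type) (_ : Fintype κ) (μ : SCirc κ), (∀ z, |μ.U z - mixU E q z| ≤ ε) ∧
      mixEn E q - ε ≤ μ.En := by
  classical
  set Q : ℝ := ∑ j, |q j| with hQ
  have hQ0 : 0 ≤ Q := Finset.sum_nonneg fun j _ => abs_nonneg _
  set d : ℝ := ε / (1 + Q + 2 * Q ^ 2) with hd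
  have hden : 0 < 1 + Q + 2 * Q ^ 2 := by positivity
  have hd0 : 0 < d := by positivity
  have hd1 : d * (1 + Q + 2 * Q ^ 2) = ε := by rw [hd]; field_simp
  choose M hM using fun j => (E j).approx d hd0
  have hsumf : ∀ f : (Σ j, Fin (M j).n) → ℝ, ∑ k, f k = ∑ j, ∑ i, f ⟨j, i⟩ :=
    fun f => Fintype.sum_sigma f
  let μ : SCirc (Σ j, Fin (M j).n) :=
    { w := fun k => q k.1 * (M k.1).w k.2
      c := fun k => (M k.1).x k.2
      ρ := fun k => (M k.1).ρ k.2
      w_sum := by
        rw [hsumf]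
        simp only [← Finset.mul_sum, (M _).w_sum, mul_one, hq]
      ρ_pos := fun k => (M k.1).ρ_pos _ }
  have hU : ∀ z, μ.U z = ∑ j, q j * (M j).U z := by
    intro z
    show ∑ k : (Σ j, Fin (M j).n), q k.1 * (M k.1).w k.2 *
      Real.log (max ((M k.1).ρ k.2) ‖z - (M k.1).x k.2‖) = _
    rw [hsumf]
    simp only [Mix.U, Finset.mul_sum, mul_assoc]
  refine ⟨_, inferInstance, μ, fun z => ?_, ?_⟩
  · rw [hU, mixU, ← Finset.sum_sub_distrib]
    refine (Finset.abs_sum_le_sum_abs _ _).trans ?_
    calc ∑ j, |q j * (M j).U z - q j * (E j).U z| = ∑ j, |q j| * |(M j).U z - (E j).U z| := by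
          refine Finset.sum_congr rfl fun j _ => ?_
          rw [← mul_sub, abs_mul]
      _ ≤ ∑ j, |q j| * d := Finset.sum_le_sum fun j _ =>
          mul_le_mul_of_nonneg_left (hM j z) (abs_nonneg _)
      _ = Q * d := by rw [← Finset.sum_mul]
      _ ≤ ε := by rw [← hd1]; nlinarith [sq_nonneg Q]
  · have hEn : μ.En = ∑ j, ∑ l, q j * q l * (M j).avg (M l).U := by
      have h1 : μ.U = ∑ l, fun z => q l * (M l).U z := by
        funext z
        rw [hU]
        simp
      have h2 : ∀ k : (Σ j, Fin (M j).n), circleAverage μ.U (μ.c k) (μ.ρ k) =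
          ∑ l, q l * circleAverage (M l).U (μ.c k) (μ.ρ k) := by
        intro k
        rw [h1, circleAverage_sum]
        · refine Finset.sum_congr rfl fun l _ => ?_
          have := circleAverage_fun_smul (a := q l) (f := (M l).U) (c := μ.c k) (R := μ.ρ k)
          simpa only [smul_eq_mul] using this
        · intro l _
          exact Mix.circleIntegrable_of_continuous
            (continuous_const.mul (M l).continuous_U) _ _
      show ∑ k : (Σ j, Fin (M j).n), q k.1 * (M k.1).w k.2 *
        circleAverage μ.U (μ.c k) (μ.ρ k) = _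
      simp only [h2]
      rw [hsumf]
      refine Finset.sum_congr rfl fun j _ => ?_
      show ∑ i, q j * (M j).w i * ∑ l, q l * circleAverage (M l).U ((M j).x i) ((M j).ρ i) = _
      simp only [Mix.avg, Finset.mul_sum]
      rw [Finset.sum_comm]
      exact Finset.sum_congr rfl fun l _ => Finset.sum_congr rfl fun i _ => by ring
    have hpair : ∀ j l, |(M j).avg (M l).U - (E j).I (E l)| ≤ 2 * d := by
      intro j l
      have h1 := Mix.avg_sub_le (M := M j) (M l).continuous_U (E l).cont (hM l)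
      have h2 := Elt.I_spec (E := E l) (F := E j) (hM j)
      rw [Elt.I_comm] at h2
      rw [abs_le] at *
      constructor <;> linarith
    have hdiff : |μ.En - mixEn E q| ≤ 2 * d * Q ^ 2 := by
      rw [hEn, mixEn, ← Finset.sum_sub_distrib]
      refine (Finset.abs_sum_le_sum_abs _ _).trans ?_
      calc ∑ j, |∑ l, q j * q l * (M j).avg (M l).U - ∑ l, q j * q l * (E j).I (E l)|
          ≤ ∑ j, ∑ l, |q j| * |q l| * (2 * d) := by
            refine Finset.sum_le_sum fun j _ => ?_
            rw [← Finset.sum_sub_distrib]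
            refine (Finset.abs_sum_le_sum_abs _ _).trans (Finset.sum_le_sum fun l _ => ?_)
            rw [← mul_sub, abs_mul, abs_mul]
            exact mul_le_mul_of_nonneg_left (hpair j l) (by positivity)
        _ = 2 * d * Q ^ 2 := by
            simp only [← Finset.sum_mul, ← Finset.mul_sum]
            ring
    have h3 := (abs_le.1 hdiff).1
    have h4 : 2 * d * Q ^ 2 ≤ ε := by rw [← hd1]; nlinarith [sq_nonneg Q]
    linarith

/-- **signed mixtures of elements** -/
noncomputable def mixPot (hq : ∑ j, q j = 1) : Pot :=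
  Pot.ofApprox (mixU E q) (continuous_mixU E q) (mixEn E q) fun ε hε => by
    obtain ⟨κ, _, μ, h1, h2⟩ := mix_signed E q hq hε
    exact ⟨Pot.ofSCirc μ, h1, h2⟩

@[simp] theorem mixPot_U (hq : ∑ j, q j = 1) : (mixPot E q hq).U = mixU E q := rfl

@[simp] theorem mixPot_En (hq : ∑ j, q j = 1) : (mixPot E q hq).En = mixEn E q := rfl

end mix

end Vale.Agent.P030.H905
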