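import Vale.Agent.P030.H352.ThmN

/-!
# P030, route N: `Flag` from one seminorm on `ℂ^m`

`OneRep m N w b C M δ A` : Cauchy representation of the row `b` of a unitriangular frame, all
vectors in `ℂ^m`; `flag_of_one` : one seminorm `N`, weights `w b`, representations of all rows
give `Flag` (helper352).
-/

open Matrix Finset MeasureTheory

namespace Vale.Agent.P030.H905

open Vale.Agent.P030.H352

variable {m : ℕ}

/-- the data of a Cauchy representation of the row `b`, all vectors in `ℂ^m` -/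
structure OneData (m : ℕ) : Type 1 where
  /-- wall space -/
  X : Type
  /-- its measurable structure -/
  [ms : MeasurableSpace X]
  /-- measure on the walls -/
  μ : Measure X
  /-- position -/
  ξ : X → ℂ
  /-- jump vector -/
  J : X → Fin m → ℂ
  /-- row `b` of the frame -/
  F : ℂ → Fin m → ℂ
  /-- value at infinity -/
  c : Fin m → ℂ

attribute [instance] OneData.ms

/-- the properties of a Cauchy representation of the row `b` on the finite set `A` -/
structure IsOne (N : ℂ → (Fin m → ℂ) → ℝ) (w : ℂ → ℝ) (b : Fin m) (C M δ : ℝ) (A : Finset ℂ)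
    (R : OneData m) : Prop where
  fin : IsFiniteMeasure R.μ
  mass : R.μ.real Set.univ ≤ M
  measξ : AEStronglyMeasurable R.ξ R.μ
  bddξ : ∃ B, ∀ᵐ x ∂(R.μ), ‖R.ξ x‖ ≤ B
  measJ : ∀ d, AEStronglyMeasurable (fun x => R.J x d) R.μ
  bddJ : ∃ B, ∀ᵐ x ∂(R.μ), ∀ d, ‖R.J x d‖ ≤ B
  rep : ∀ z ∈ A, ∀ d, R.F z d = R.c d + ∫ x, R.J x d / (R.ξ x - z) ∂(R.μ)
  sep : ∀ᵐ x ∂(R.μ), ∀ z ∈ A, δ ≤ ‖R.ξ x - z‖
  Jlow : ∀ᵐ x ∂(R.μ), ∀ d ≤ b, R.J x d = 0
  jump : ∀ᵐ x ∂(R.μ), N (R.ξ x) (R.J x) ≤ C * Real.exp (w (R.ξ x))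
  Flow : ∀ z ∈ A, ∀ d < b, R.F z d = 0
  Fone : ∀ z ∈ A, R.F z b = 1
  frame : ∀ z ∈ A, ∀ v : Fin m → ℂ, (∀ d < b, v d = 0) → N z (v - v b • R.F z) ≤ C * N z v

/-- the seminorm on the tails -/
def tailN (N : ℂ → (Fin (m + 1) → ℂ) → ℝ) (z : ℂ) (v : Fin m → ℂ) : ℝ := N z (Fin.cons 0 v)

/-- the first coordinate -/
theorem cons_tail_of_zero {v : Fin (m + 1) → ℂ} (h : v 0 = 0) :
    (Fin.cons 0 (Fin.tail v) : Fin (m + 1) → ℂ) = v := by
  rw [← h]
  exact Fin.cons_self_tail v

/-- representation of the first row in the form of helper352 -/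
theorem isRep_zero {N : ℂ → (Fin (m + 1) → ℂ) → ℝ} {w : ℂ → ℝ} {C M δ : ℝ} {A : Finset ℂ}
    {R : OneData (m + 1)} (h : IsOne N w 0 C M δ A R) :
    ∃ R', IsRep N (tailN N) w C M δ A R' := by
  refine ⟨{ X := R.X, ms := R.ms, μ := R.μ, ξ := R.ξ, J := fun x => Fin.tail (R.J x)
            F := fun z => Fin.tail (R.F z), c := Fin.tail R.c }, ?_⟩
  refine
    { fin := h.fin
      mass := h.mass
      measξ := h.measξ
      bddξ := h.bddξ
      measJ := fun b => h.measJ b.succ
      bddJ := ?_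
      rep := fun z hz b => h.rep z hz b.succ
      sep := h.sep
      jump := ?_
      frame := ?_ }
  · obtain ⟨B, hB⟩ := h.bddJ
    exact ⟨B, hB.mono fun x hx b => hx b.succ⟩
  · filter_upwards [h.jump, h.Jlow] with x hx hx0
    change N (R.ξ x) (Fin.cons 0 (Fin.tail (R.J x))) ≤ _
    rw [cons_tail_of_zero (hx0 0 le_rfl)]
    exact hx
  · intro z hz v
    have h1 := h.frame z hz v (fun d hd => absurd hd (Fin.not_lt_zero d))
    have h2 : v - v 0 • R.F z = Fin.cons 0 (Fin.tail v - v 0 • Fin.tail (R.F z)) := by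
      ext d
      induction d using Fin.cases with
      | zero => simp [h.Fone z hz]
      | succ d => simp [Fin.tail]
    rw [h2] at h1
    exact h1

/-- representations of the later rows -/
theorem isOne_succ {N : ℂ → (Fin (m + 1) → ℂ) → ℝ} {w : ℂ → ℝ} {b : Fin m} {C M δ : ℝ}
    {A : Finset ℂ} {R : OneData (m + 1)} (h : IsOne N w b.succ C M δ A R) :
    ∃ R' : OneData m, IsOne (tailN N) w b C M δ A R' := by
  refine ⟨{ X := R.X, ms := R.ms, μ := R.μ, ξ := R.ξ, J := fun x => Fin.tail (R.J x)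
            F := fun z => Fin.tail (R.F z), c := Fin.tail R.c }, ?_⟩
  refine
    { fin := h.fin
      mass := h.mass
      measξ := h.measξ
      bddξ := h.bddξ
      measJ := fun b => h.measJ b.succ
      bddJ := ?_
      rep := fun z hz b => h.rep z hz b.succ
      sep := h.sep
      Jlow := ?_
      jump := ?_
      Flow := fun z hz d hd => h.Flow z hz d.succ (Fin.succ_lt_succ_iff.2 hd)
      Fone := fun z hz => h.Fone z hz
      frame := ?_ }
  · obtain ⟨B, hB⟩ := h.bddJ
    exact ⟨B, hB.mono fun x hx b => hx b.succ⟩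
  · filter_upwards [h.Jlow] with x hx d hd
    exact hx d.succ (Fin.succ_le_succ_iff.2 hd)
  · filter_upwards [h.jump, h.Jlow] with x hx hx0
    change N (R.ξ x) (Fin.cons 0 (Fin.tail (R.J x))) ≤ _
    rw [cons_tail_of_zero (hx0 0 (Fin.zero_le _))]
    exact hx
  · intro z hz v hv
    have h1 := h.frame z hz (Fin.cons 0 v) (by
      intro d hd
      induction d using Fin.cases with
      | zero => simp
      | succ d =>
        rw [Fin.cons_succ]
        exact hv d (Fin.succ_lt_succ_iff.1 hd))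
    have h2 : (Fin.cons 0 v : Fin (m + 1) → ℂ) - (Fin.cons 0 v : Fin (m + 1) → ℂ) b.succ • R.F z =
        Fin.cons 0 (v - v b • Fin.tail (R.F z)) := by
      ext d
      induction d using Fin.cases with
      | zero => simp [h.Flow z hz 0 (Fin.succ_pos b)]
      | succ d => simp [Fin.tail]
    rw [h2] at h1
    exact h1

/-- **`Flag` from one seminorm.** -/
theorem flag_of_one (K : ℕ) (C M δ : ℝ) : ∀ (m : ℕ) (D : Fin m → ℕ) (N : ℂ → (Fin m → ℂ) → ℝ)
    (w : Fin m → ℂ → ℝ) (E : Fin m → ℝ), (∀ b c, b ≤ c → D c ≤ D b) → (∀ z v, 0 ≤ N z v) →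
    (∀ b, Energy (w b) (D b) (E b) K δ) →
    (∀ b z, ∀ v : Fin m → ℂ, (∀ d < b, v d = 0) → ‖v b‖ * Real.exp (w b z) ≤ N z v) →
    (∀ b, ∀ A : Finset ℂ, A.card ≤ K → ∃ R, IsOne N (w b) b C M δ A R) →
    Flag K C M δ m D N (∑ b, E b) := by
  intro m
  induction m with
  | zero =>
    intro D N w E _ hN _ _ _
    rw [Fin.sum_univ_zero]
    exact Flag.nil D N hN
  | succ m ih =>
    intro D N w E hD hN hE hlead hrep
    rw [Fin.sum_univ_succ]
    refine Flag.cons (N' := tailN N) (w := w 0) hN ?_ (fun b => hD 0 b.succ (Fin.zero_le _)) (hE 0)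
      ?_ ?_
    · refine ih (fun b => D b.succ) (tailN N) (fun b => w b.succ) (fun b => E b.succ) ?_ ?_ ?_ ?_ ?_
      · exact fun b c hbc => hD _ _ (Fin.succ_le_succ_iff.2 hbc)
      · exact fun z v => hN _ _
      · exact fun b => hE b.succ
      · intro b z v hv
        have h1 := hlead b.succ z (Fin.cons 0 v) (by
          intro d hd
          induction d using Fin.cases with
          | zero => simp
          | succ d =>
            rw [Fin.cons_succ]
            exact hv d (Fin.succ_lt_succ_iff.1 hd))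
        rw [Fin.cons_succ] at h1
        exact h1
      · intro b A hA
        obtain ⟨R, hR⟩ := hrep b.succ A hA
        exact isOne_succ hR
    · intro z v
      exact hlead 0 z v (fun d hd => absurd hd (Fin.not_lt_zero d))
    · intro A hA
      obtain ⟨R, hR⟩ := hrep 0 A hA
      exact isRep_zero hR

end Vale.Agent.P030.H905
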