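import Vale.Agent.P030.H905.Elt

/-!
# P030, route N: uniform measures on straight segments

`Elt.seg a b` : the uniform probability measure on the segment `[a, b]`, `a ≠ b`;
`segU_eq` : closed form of the potential;  `Elt.I_seg : E.I (seg a b) = ∫₀¹ E.U (a + t (b - a))`.
-/

open Finset Filter Topology MeasureTheory Real

namespace Vale.Agent.P030.H905

/-- Riemann sums -/
theorem riemann {g : ℝ → ℝ} (hg : IntervalIntegrable g volume 0 1) {n : ℕ} (hn : 0 < n)
    (c : Fin n → ℝ) {e : ℝ}
    (h : ∀ k : Fin n, ∀ t ∈ Set.Icc ((k : ℝ) / n) (((k : ℝ) + 1) / n), |g t - c k| ≤ e) :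
    |∑ k : Fin n, (1 / n : ℝ) * c k - ∫ t in (0 : ℝ)..1, g t| ≤ e := by
  have hn0 : (0 : ℝ) < n := by exact_mod_cast hn
  have hint : ∀ k < n, IntervalIntegrable g volume ((k : ℝ) / n) (((k + 1 : ℕ) : ℝ) / n) := by
    intro k hk
    refine hg.mono_set ?_
    have hk1 : ((k : ℝ) + 1) ≤ n := by exact_mod_cast hk
    rw [Set.uIcc_of_le (by positivity : (0 : ℝ) ≤ 1), Set.uIcc_of_le (by
      gcongr; linarith)]
    refine Set.Icc_subset_Icc (by positivity) ?_
    rw [div_le_one hn0]
    push_cast
    exact hk1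
  have h1 := intervalIntegral.sum_integral_adjacent_intervals (a := fun k : ℕ => (k : ℝ) / n) hint
  have e0 : ((0 : ℕ) : ℝ) / n = 0 := by simp
  have e1 : ((n : ℕ) : ℝ) / n = 1 := div_self hn0.ne'
  simp only [e0, e1] at h1
  rw [← h1, ← Fin.sum_univ_eq_sum_range
    (fun k => ∫ x in ((k : ℝ) / n)..(((k + 1 : ℕ) : ℝ) / n), g x) n, ← Finset.sum_sub_distrib]
  refine (Finset.abs_sum_le_sum_abs _ _).trans ?_
  have h2 : ∀ k ∈ (Finset.univ : Finset (Fin n)),
      |(1 / n : ℝ) * c k - ∫ x in ((k : ℕ) : ℝ) / n..(((k : ℕ) + 1 : ℕ) : ℝ) / n, g x| ≤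
        e * (1 / n) := by
    intro k _
    have hle : ((k : ℕ) : ℝ) / n ≤ (((k : ℕ) + 1 : ℕ) : ℝ) / n := by gcongr; linarith
    have hlen : (((k : ℕ) + 1 : ℕ) : ℝ) / n - ((k : ℕ) : ℝ) / n = 1 / n := by
      push_cast
      ring
    have e2 : (1 / n : ℝ) * c k = ∫ _ in ((k : ℕ) : ℝ) / n..(((k : ℕ) + 1 : ℕ) : ℝ) / n, c k := by
      rw [intervalIntegral.integral_const, hlen, smul_eq_mul]
    rw [e2, ← intervalIntegral.integral_sub intervalIntegrable_const (hint k k.2)]
    have h3 := intervalIntegral.norm_integral_le_of_norm_le_const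
      (a := ((k : ℕ) : ℝ) / n) (b := (((k : ℕ) + 1 : ℕ) : ℝ) / n) (C := e)
      (f := fun x => c k - g x) (fun t ht => by
        rw [Set.uIoc_of_le hle] at ht
        rw [Real.norm_eq_abs, abs_sub_comm]
        refine h k t ⟨ht.1.le, ?_⟩
        have := ht.2
        push_cast at this
        exact this)
    rw [hlen, abs_of_nonneg (by positivity : (0 : ℝ) ≤ 1 / n)] at h3
    exact h3
  refine (Finset.sum_le_sum h2).trans (le_of_eq ?_)
  rw [Finset.sum_const, Finset.card_univ, Fintype.card_fin, nsmul_eq_mul]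
  field_simp

theorem abs_log_sub_le {ρ x y : ℝ} (hρ : 0 < ρ) (hx : ρ ≤ x) (hy : ρ ≤ y) :
    |Real.log x - Real.log y| ≤ |x - y| / ρ := by
  have key : ∀ x y : ℝ, ρ ≤ x → ρ ≤ y → Real.log x - Real.log y ≤ |x - y| / ρ := by
    intro x y hx hy
    have hx0 : 0 < x := hρ.trans_le hx
    have hy0 : 0 < y := hρ.trans_le hy
    rw [← Real.log_div hx0.ne' hy0.ne']
    have h1 := Real.log_le_sub_one_of_pos (div_pos hx0 hy0)
    refine h1.trans ?_
    have h2 : x / y - 1 = (x - y) / y := by field_simp
    rw [h2]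
    calc (x - y) / y ≤ |x - y| / y := div_le_div_of_nonneg_right (le_abs_self _) hy0.le
      _ ≤ |x - y| / ρ := div_le_div_of_nonneg_left (abs_nonneg _) hρ hy
  rw [abs_le]
  constructor
  · have := key y x hy hx
    rw [abs_sub_comm] at this
    linarith
  · exact key x y hx hy

theorem abs_log_max_sub_le {ρ : ℝ} (hρ : 0 < ρ) (x y : ℝ) :
    |Real.log (max ρ x) - Real.log (max ρ y)| ≤ |x - y| / ρ := by
  refine (abs_log_sub_le hρ (le_max_left _ _) (le_max_left _ _)).trans ?_
  refine div_le_div_of_nonneg_right ?_ hρ.le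
  exact abs_max_sub_max_le_abs x y ρ |> fun h => by simpa [max_comm] using h

/-- the truncation of the logarithm costs at most `2 r` -/
theorem trunc_le {r : ℝ} (hr : 0 < r) (t0 : ℝ) :
    ∫ t in (0 : ℝ)..1, (Real.log (max r |t - t0|) - Real.log (t - t0)) ≤ 2 * r := by
  set h : ℝ → ℝ := fun t => Real.log (max r |t - t0|) - Real.log (t - t0) with hh
  set c : ℝ := min 0 (t0 - r) with hc
  set d : ℝ := max 1 (t0 + r) with hd
  have hc0 : c ≤ 0 := min_le_left _ _
  have hc1 : c ≤ t0 - r := min_le_right _ _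
  have hd0 : 1 ≤ d := le_max_left _ _
  have hd1 : t0 + r ≤ d := le_max_right _ _
  have hI : ∀ a b : ℝ, IntervalIntegrable h volume a b := by
    intro a b
    refine IntervalIntegrable.sub ?_ ?_
    · refine Continuous.intervalIntegrable ?_ _ _
      exact Continuous.log (by fun_prop) fun z => (lt_max_of_lt_left hr).ne'
    · have := (intervalIntegral.intervalIntegrable_log' (a := a - t0) (b := b - t0)).comp_sub_right
        t0
      simpa using this
  have h1 : ∫ t in (0 : ℝ)..1, h t ≤ ∫ t in c..d, h t := by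
    refine intervalIntegral.integral_mono_interval hc0 zero_le_one hd0 ?_ (hI c d)
    have hne : ∀ᵐ t : ℝ, t ≠ t0 := by
      rw [ae_iff]
      simp
    refine ae_restrict_of_ae ?_
    filter_upwards [hne] with t ht
    show 0 ≤ Real.log (max r |t - t0|) - Real.log (t - t0)
    rw [← Real.log_abs (t - t0)]
    have h2 : 0 < |t - t0| := abs_pos.2 (sub_ne_zero.2 ht)
    have := Real.log_le_log h2 (le_max_right r _)
    linarith
  have h2 : ∫ t in c..d, h t = (∫ t in c..(t0 - r), h t) + (∫ t in (t0 - r)..(t0 + r), h t) +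
      ∫ t in (t0 + r)..d, h t := by
    rw [intervalIntegral.integral_add_adjacent_intervals (hI _ _) (hI _ _),
      intervalIntegral.integral_add_adjacent_intervals (hI _ _) (hI _ _)]
  have hz : ∀ t : ℝ, r ≤ |t - t0| → h t = 0 := by
    intro t ht
    show Real.log (max r |t - t0|) - Real.log (t - t0) = 0
    rw [max_eq_right ht, Real.log_abs, sub_self]
  have h3 : ∫ t in c..(t0 - r), h t = 0 := by
    rw [intervalIntegral.integral_congr (g := fun _ => (0 : ℝ)) fun t ht => ?_]
    · simp
    · rw [Set.uIcc_of_le hc1] at ht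
      refine hz t ?_
      rw [abs_sub_comm]
      exact (by linarith [ht.2] : r ≤ t0 - t).trans (le_abs_self _)
  have h4 : ∫ t in (t0 + r)..d, h t = 0 := by
    rw [intervalIntegral.integral_congr (g := fun _ => (0 : ℝ)) fun t ht => ?_]
    · simp
    · rw [Set.uIcc_of_le hd1] at ht
      refine hz t ?_
      exact (by linarith [ht.1] : r ≤ t - t0).trans (le_abs_self _)
  have h5 : ∫ t in (t0 - r)..(t0 + r), h t = 2 * r := by
    have h6 : ∫ t in (t0 - r)..(t0 + r), h t =
        ∫ t in (t0 - r)..(t0 + r), (fun u => Real.log r - Real.log u) (t - t0) := by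
      refine intervalIntegral.integral_congr fun t ht => ?_
      rw [Set.uIcc_of_le (by linarith)] at ht
      show Real.log (max r |t - t0|) - Real.log (t - t0) = Real.log r - Real.log (t - t0)
      rw [max_eq_left]
      rw [abs_le]
      constructor <;> linarith [ht.1, ht.2]
    rw [h6, intervalIntegral.integral_comp_sub_right (fun u => Real.log r - Real.log u) t0]
    have e1 : t0 - r - t0 = -r := by ring
    have e2 : t0 + r - t0 = r := by ring
    rw [e1, e2, intervalIntegral.integral_sub intervalIntegrable_const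
      intervalIntegral.intervalIntegrable_log', integral_log, intervalIntegral.integral_const,
      Real.log_neg_eq_log, smul_eq_mul]
    ring
  rw [h2, h3, h4, h5] at h1
  linarith

/-- the point of the segment -/
noncomputable def sp (a b : ℂ) (t : ℝ) : ℂ := a + t * (b - a)

theorem continuous_sp (a b : ℂ) : Continuous (sp a b) := by
  unfold sp
  fun_prop

theorem norm_sp_sub (a b : ℂ) (s t : ℝ) : ‖sp a b s - sp a b t‖ = |s - t| * ‖b - a‖ := by
  have : sp a b s - sp a b t = ((s - t : ℝ) : ℂ) * (b - a) := by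
    unfold sp
    push_cast
    ring
  rw [this, norm_mul, Complex.norm_real, Real.norm_eq_abs]

/-- the potential of the segment -/
noncomputable def segU (a b z : ℂ) : ℝ := ∫ t in (0 : ℝ)..1, Real.log ‖z - sp a b t‖

theorem intervalIntegrable_seg (a b z : ℂ) (s t : ℝ) :
    IntervalIntegrable (fun t => Real.log ‖z - sp a b t‖) volume s t := by
  refine MeromorphicOn.intervalIntegrable_log_norm (f := fun t : ℝ => z - sp a b t) ?_
  intro x _
  refine AnalyticAt.meromorphicAt ?_
  unfold sp
  refine AnalyticAt.sub analyticAt_const (analyticAt_const.add (AnalyticAt.mul ?_ analyticAt_const))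
  exact Complex.ofRealCLM.analyticAt x

theorem trunc_seg {a b : ℂ} (hab : a ≠ b) {ρ : ℝ} (hρ : 0 < ρ) (z : ℂ) :
    |(∫ t in (0 : ℝ)..1, Real.log (max ρ ‖z - sp a b t‖)) - segU a b z| ≤
      2 * ρ / ‖b - a‖ := by
  have hL : 0 < ‖b - a‖ := norm_pos_iff.2 (sub_ne_zero.2 hab.symm)
  have hba : b - a ≠ 0 := sub_ne_zero.2 hab.symm
  set L := ‖b - a‖ with hLdef
  set t0 : ℝ := ((z - a) / (b - a)).re with ht0
  set r : ℝ := ρ / L with hr
  have hr0 : 0 < r := by positivity
  have hlow : ∀ t : ℝ, L * |t - t0| ≤ ‖z - sp a b t‖ := by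
    intro t
    have h1 : z - sp a b t = (b - a) * ((z - a) / (b - a) - t) := by
      unfold sp
      field_simp
      ring
    rw [h1, norm_mul]
    refine mul_le_mul_of_nonneg_left ?_ hL.le
    have h2 := Complex.abs_re_le_norm ((z - a) / (b - a) - t)
    rw [Complex.sub_re, Complex.ofReal_re, ← ht0, abs_sub_comm] at h2
    exact h2
  have hmaxI : IntervalIntegrable (fun t => Real.log (max ρ ‖z - sp a b t‖)) volume 0 1 := by
    refine Continuous.intervalIntegrable ?_ _ _
    refine Continuous.log ?_ fun _ => (lt_max_of_lt_left hρ).ne'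
    exact continuous_const.max (continuous_const.sub (continuous_sp a b)).norm
  have hI := intervalIntegrable_seg a b z 0 1
  have hne : ∀ᵐ t : ℝ, t ≠ t0 := by
    rw [ae_iff]
    simp
  have hpos : ∀ t, t ≠ t0 → 0 < ‖z - sp a b t‖ := fun t ht =>
    lt_of_lt_of_le (mul_pos hL (abs_pos.2 (sub_ne_zero.2 ht))) (hlow t)
  have h0 : 0 ≤ (∫ t in (0 : ℝ)..1, Real.log (max ρ ‖z - sp a b t‖)) - segU a b z := by
    rw [segU, sub_nonneg]
    refine intervalIntegral.integral_mono_ae zero_le_one hI hmaxI ?_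
    filter_upwards [hne] with t ht
    exact Real.log_le_log (hpos t ht) (le_max_right _ _)
  rw [abs_of_nonneg h0, segU, ← intervalIntegral.integral_sub hmaxI hI]
  have h2r : 2 * ρ / L = 2 * r := by rw [hr]; ring
  rw [h2r]
  refine le_trans ?_ (trunc_le hr0 t0)
  have hRI : IntervalIntegrable (fun t => Real.log (max r |t - t0|) - Real.log (t - t0)) volume
      0 1 := by
    refine IntervalIntegrable.sub ?_ ?_
    · refine Continuous.intervalIntegrable ?_ _ _
      exact Continuous.log (by fun_prop) fun z => (lt_max_of_lt_left hr0).ne'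
    · have := (intervalIntegral.intervalIntegrable_log' (a := 0 - t0)
        (b := 1 - t0)).comp_sub_right t0
      simpa using this
  refine intervalIntegral.integral_mono_ae zero_le_one (hmaxI.sub hI) hRI ?_
  filter_upwards [hne] with t ht
  have hx : 0 < |t - t0| := abs_pos.2 (sub_ne_zero.2 ht)
  have hLx : 0 < L * |t - t0| := mul_pos hL hx
  have hy := hlow t
  have hy0 := hpos t ht
  rw [← Real.log_abs (t - t0)]
  rcases le_total ρ ‖z - sp a b t‖ with h1 | h1
  · rw [max_eq_right h1, sub_self]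
    have := Real.log_le_log hx (le_max_right r |t - t0|)
    linarith
  · rw [max_eq_left h1]
    have h2 : |t - t0| ≤ r := by
      rw [hr, le_div_iff₀ hL]
      linarith
    rw [max_eq_left h2, hr, Real.log_div hρ.ne' hL.ne']
    have h3 := Real.log_le_log hLx hy
    rw [Real.log_mul hL.ne' hx.ne'] at h3
    linarith

/-- equal circles along the segment -/
noncomputable def segMix (a b : ℂ) (n : ℕ) (hn : 0 < n) (ρ : ℝ) (hρ : 0 < ρ) : Mix where
  n := n
  w := fun _ => 1 / n
  x := fun k => sp a b ((k : ℝ) / n)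
  ρ := fun _ => ρ
  w_nonneg := fun _ => by positivity
  w_sum := by
    have : (n : ℝ) ≠ 0 := by exact_mod_cast hn.ne'
    simp [this]
  ρ_pos := fun _ => hρ

theorem near_in {n : ℕ} (hn : 0 < n) (k : Fin n) {t : ℝ}
    (ht : t ∈ Set.Icc ((k : ℝ) / n) (((k : ℝ) + 1) / n)) : |t - (k : ℝ) / n| ≤ 1 / n := by
  have hn0 : (0 : ℝ) < n := by exact_mod_cast hn
  rw [abs_of_nonneg (by linarith [ht.1])]
  have := ht.2
  rw [add_div] at this
  linarith

theorem segMix_near {a b : ℂ} (hab : a ≠ b) {n : ℕ} (hn : 0 < n) {ρ : ℝ} (hρ : 0 < ρ) (z : ℂ) :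
    |(segMix a b n hn ρ hρ).U z - segU a b z| ≤ ‖b - a‖ / (n * ρ) + 2 * ρ / ‖b - a‖ := by
  have hn0 : (0 : ℝ) < n := by exact_mod_cast hn
  have hmaxI : IntervalIntegrable (fun t => Real.log (max ρ ‖z - sp a b t‖)) volume 0 1 := by
    refine Continuous.intervalIntegrable ?_ _ _
    refine Continuous.log ?_ fun _ => (lt_max_of_lt_left hρ).ne'
    exact continuous_const.max (continuous_const.sub (continuous_sp a b)).norm
  have h1 : |(segMix a b n hn ρ hρ).U z - ∫ t in (0 : ℝ)..1, Real.log (max ρ ‖z - sp a b t‖)| ≤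
      ‖b - a‖ / (n * ρ) := by
    refine riemann hmaxI hn (fun k => Real.log (max ρ ‖z - sp a b ((k : ℝ) / n)‖)) ?_
    intro k t ht
    refine (abs_log_max_sub_le hρ _ _).trans ?_
    rw [div_mul_eq_div_div]
    refine div_le_div_of_nonneg_right ?_ hρ.le
    refine (abs_norm_sub_norm_le _ _).trans ?_
    have e1 : z - sp a b t - (z - sp a b ((k : ℝ) / n)) = sp a b ((k : ℝ) / n) - sp a b t := by
      ring
    rw [e1, norm_sp_sub, abs_sub_comm]
    have := mul_le_mul_of_nonneg_right (near_in hn k ht) (norm_nonneg (b - a))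
    rw [one_div_mul_eq_div] at this
    exact this
  have h2 := trunc_seg hab hρ z
  calc |(segMix a b n hn ρ hρ).U z - segU a b z|
      = |((segMix a b n hn ρ hρ).U z - ∫ t in (0 : ℝ)..1, Real.log (max ρ ‖z - sp a b t‖)) +
        ((∫ t in (0 : ℝ)..1, Real.log (max ρ ‖z - sp a b t‖)) - segU a b z)| := by ring_nf
    _ ≤ _ := (abs_add_le _ _).trans (add_le_add h1 h2)

/-- good parameters -/
theorem seg_params {L ε δ : ℝ} (hL : 0 < L) (hε : 0 < ε) (hδ : 0 < δ) :
    ∃ (n : ℕ) (_ : 0 < n) (ρ : ℝ) (_ : 0 < ρ), L / (n * ρ) + 2 * ρ / L ≤ ε ∧ ρ + L / n < δ := by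
  set ρ : ℝ := min (ε * L / 4) (δ / 3) with hρdef
  have hρ : 0 < ρ := by positivity
  have h1 : ρ ≤ ε * L / 4 := min_le_left _ _
  have h2 : ρ ≤ δ / 3 := min_le_right _ _
  obtain ⟨n, hn⟩ := exists_nat_gt (max (2 * L / (ρ * ε)) (3 * L / δ))
  have hn1 := lt_of_le_of_lt (le_max_left _ _) hn
  have hn2 := lt_of_le_of_lt (le_max_right _ _) hn
  have hn0 : (0 : ℝ) < n := lt_of_le_of_lt (by positivity) hn1
  refine ⟨n, by exact_mod_cast hn0, ρ, hρ, ?_, ?_⟩
  · have h3 : L / (n * ρ) ≤ ε / 2 := by
      rw [div_lt_iff₀ (by positivity)] at hn1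
      rw [div_le_div_iff₀ (by positivity) two_pos]
      nlinarith
    have h4 : 2 * ρ / L ≤ ε / 2 := by
      rw [div_le_div_iff₀ hL two_pos]
      nlinarith
    linarith
  · have h3 : L / n ≤ δ / 3 := by
      rw [div_lt_iff₀ hδ] at hn2
      rw [div_le_div_iff₀ hn0 (by norm_num)]
      nlinarith
    linarith

/-- **the segment** -/
noncomputable def Elt.seg (a b : ℂ) (hab : a ≠ b) : Elt :=
  Elt.mk' (segU a b) fun ε hε => by
    obtain ⟨n, hn, ρ, hρ, h1, -⟩ := seg_params (norm_pos_iff.2 (sub_ne_zero.2 hab.symm)) hε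
      (show (0 : ℝ) < 1 by norm_num)
    exact ⟨segMix a b n hn ρ hρ, fun z => (segMix_near hab hn hρ z).trans h1⟩

theorem Elt.seg_U (a b : ℂ) (hab : a ≠ b) : (Elt.seg a b hab).U = segU a b := rfl

theorem circleAverage_near {f : ℂ → ℝ} (hf : Continuous f) {c : ℂ} {R v e : ℝ}
    (h : ∀ z ∈ Metric.sphere c |R|, |f z - v| ≤ e) : |circleAverage f c R - v| ≤ e := by
  have hfi := Mix.circleIntegrable_of_continuous hf c R
  rw [abs_le]
  constructor
  · have h2 : circleAverage (fun _ => v - e) c R ≤ circleAverage f c R :=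
      circleAverage_mono (circleIntegrable_const _ _ _) hfi fun z hz => by
        have := (abs_le.1 (h z hz)).1
        linarith
    rw [circleAverage_const] at h2
    linarith
  · have h2 : circleAverage f c R ≤ circleAverage (fun _ => v + e) c R :=
      circleAverage_mono hfi (circleIntegrable_const _ _ _) fun z hz => by
        have := (abs_le.1 (h z hz)).2
        linarith
    rw [circleAverage_const] at h2
    linarith

/-- **the mutual energy with a segment** -/
theorem Elt.I_seg (E : Elt) {a b : ℂ} (hab : a ≠ b) :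
    E.I (Elt.seg a b hab) = ∫ t in (0 : ℝ)..1, E.U (sp a b t) := by
  have hL : 0 < ‖b - a‖ := norm_pos_iff.2 (sub_ne_zero.2 hab.symm)
  refine Elt.I_eq_of_forall fun ε hε => ?_
  set R : ℝ := ‖a‖ + ‖b - a‖ + 1 with hR
  have huc : UniformContinuousOn E.U (Metric.closedBall 0 R) :=
    (isCompact_closedBall (0 : ℂ) R).uniformContinuousOn_of_continuous E.cont.continuousOn
  rw [Metric.uniformContinuousOn_iff] at huc
  obtain ⟨δ, hδ, hu⟩ := huc ε hε
  obtain ⟨n, hn, ρ, hρ, h1, h2⟩ := seg_params hL hε (lt_min hδ one_pos)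
  have hn0 : (0 : ℝ) < n := by exact_mod_cast hn
  refine ⟨segMix a b n hn ρ hρ, fun z => (segMix_near hab hn hρ z).trans h1, ?_⟩
  have hδ1 : ρ + ‖b - a‖ / n < δ := lt_of_lt_of_le h2 (min_le_left _ _)
  have hδ2 : ρ + ‖b - a‖ / n < 1 := lt_of_lt_of_le h2 (min_le_right _ _)
  have hcont : Continuous fun t => E.U (sp a b t) := E.cont.comp (continuous_sp a b)
  refine riemann (hcont.intervalIntegrable 0 1) hn
    (fun k => circleAverage E.U (sp a b ((k : ℝ) / n)) ρ) ?_
  intro k t ht
  rw [abs_sub_comm]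
  refine circleAverage_near E.cont fun z hz => ?_
  rw [mem_sphere_iff_norm, abs_of_pos hρ] at hz
  have hk0 : (0 : ℝ) ≤ (k : ℝ) / n := by positivity
  have hk1 : ((k : ℝ) + 1) / n ≤ 1 := by
    rw [div_le_one hn0]
    exact_mod_cast k.2
  have ht0 : 0 ≤ t := hk0.trans ht.1
  have ht1 : t ≤ 1 := ht.2.trans hk1
  have hd : ‖z - sp a b t‖ ≤ ρ + ‖b - a‖ / n := by
    have e1 : z - sp a b t = (z - sp a b ((k : ℝ) / n)) + (sp a b ((k : ℝ) / n) - sp a b t) := by
      ring
    rw [e1]
    refine (norm_add_le _ _).trans ?_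
    rw [hz, norm_sp_sub, abs_sub_comm]
    have := mul_le_mul_of_nonneg_right (near_in hn k ht) (norm_nonneg (b - a))
    rw [one_div_mul_eq_div] at this
    linarith
  have hst : ‖sp a b t‖ ≤ ‖a‖ + ‖b - a‖ := by
    unfold sp
    refine (norm_add_le _ _).trans ?_
    rw [norm_mul, Complex.norm_real, Real.norm_eq_abs, abs_of_nonneg ht0]
    have := mul_le_mul_of_nonneg_right ht1 (norm_nonneg (b - a))
    linarith
  have hzR : z ∈ Metric.closedBall (0 : ℂ) R := by
    rw [mem_closedBall_zero_iff]
    have e1 : z = (z - sp a b t) + sp a b t := by ring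
    rw [e1]
    refine (norm_add_le _ _).trans ?_
    rw [hR]
    linarith
  have hpR : sp a b t ∈ Metric.closedBall (0 : ℂ) R := by
    rw [mem_closedBall_zero_iff, hR]
    linarith
  have := hu z hzR (sp a b t) hpR (by rw [dist_eq_norm]; linarith)
  rw [Real.dist_eq] at this
  exact this.le

/-- the basic logarithmic integral -/
theorem integral_log_norm_sub (w : ℂ) :
    ∫ t in (0 : ℝ)..1, Real.log ‖w - t‖ =
      (w * Complex.log w - (w - 1) * Complex.log (w - 1)).re - 1 := by
  by_cases hw : w.im = 0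
  · obtain ⟨x, rfl⟩ : ∃ x : ℝ, w = x := ⟨w.re, by
      apply Complex.ext <;> simp [hw]⟩
    have h1 : ∀ t : ℝ, Real.log ‖(x : ℂ) - t‖ = Real.log (x - t) := by
      intro t
      rw [← Complex.ofReal_sub, Complex.norm_real, Real.norm_eq_abs, Real.log_abs]
    have h2 : ((x : ℂ) * Complex.log x - ((x : ℂ) - 1) * Complex.log ((x : ℂ) - 1)).re =
        x * Real.log x - (x - 1) * Real.log (x - 1) := by
      have e1 : (x : ℂ) - 1 = ((x - 1 : ℝ) : ℂ) := by push_cast; ring
      rw [e1, Complex.sub_re, Complex.re_ofReal_mul, Complex.re_ofReal_mul, Complex.log_ofReal_re,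
        Complex.log_ofReal_re]
    rw [h2, intervalIntegral.integral_congr fun t _ => h1 t,
      intervalIntegral.integral_comp_sub_left (fun u => Real.log u) x, integral_log]
    ring_nf
  · have hd : ∀ t ∈ Set.uIcc (0 : ℝ) 1, HasDerivAt
        (fun t : ℝ => (-(((w - t) * Complex.log (w - t)) + t)).re) (Real.log ‖w - t‖) t := by
      intro t _
      have hs : w - (t : ℂ) ∈ Complex.slitPlane := by
        refine Or.inr ?_
        rw [Complex.sub_im, Complex.ofReal_im, sub_zero]
        exact hw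
      have hne : w - (t : ℂ) ≠ 0 := Complex.slitPlane_ne_zero hs
      have h0 : HasDerivAt (fun t : ℝ => w - (t : ℂ)) (-1) t := by
        have := (Complex.ofRealCLM.hasDerivAt (x := t)).const_sub w
        simpa using this
      have h1 : HasDerivAt (fun t : ℝ => Complex.log (w - (t : ℂ))) (-1 / (w - t)) t := by
        have := h0.clog_real hs
        simpa using this
      have h2 : HasDerivAt (fun t : ℝ => (t : ℂ)) 1 t := by
        have := (Complex.ofRealCLM.hasDerivAt (x := t))
        rw [Complex.ofRealCLM_apply, Complex.ofReal_one] at this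
        exact this
      have h3 := ((h0.mul h1).add h2).neg
      have h4 := (Complex.reCLM.hasFDerivAt.comp_hasDerivAt t h3)
      have e1 : Real.log ‖w - t‖ =
          Complex.reCLM (-((-1) * Complex.log (w - t) + (w - t) * (-1 / (w - t)) + 1)) := by
        rw [Complex.reCLM_apply, mul_div_cancel₀ _ hne]
        simp [Complex.log_re]
      rw [e1]
      exact h4
    have hint : IntervalIntegrable (fun t : ℝ => Real.log ‖w - t‖) volume 0 1 := by
      refine Continuous.intervalIntegrable ?_ _ _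
      refine Continuous.log (by fun_prop) fun t => ?_
      rw [norm_ne_zero_iff]
      intro h
      apply hw
      have := congrArg Complex.im h
      simpa using this
    rw [intervalIntegral.integral_eq_sub_of_hasDerivAt hd hint]
    simp only [Complex.neg_re, Complex.add_re, Complex.ofReal_one, Complex.ofReal_zero, sub_zero,
      Complex.one_re, Complex.zero_re, Complex.sub_re]
    ring

/-- **closed form of the potential of a segment** -/
theorem segU_eq {a b : ℂ} (hab : a ≠ b) (z : ℂ) :
    segU a b z = Real.log ‖b - a‖ + (((z - a) / (b - a)) * Complex.log ((z - a) / (b - a)) -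
      ((z - b) / (b - a)) * Complex.log ((z - b) / (b - a))).re - 1 := by
  have hba : b - a ≠ 0 := sub_ne_zero.2 hab.symm
  have hL : 0 < ‖b - a‖ := norm_pos_iff.2 hba
  set w : ℂ := (z - a) / (b - a) with hw
  have hw1 : (z - b) / (b - a) = w - 1 := by
    rw [hw]
    field_simp
    ring
  rw [hw1]
  have hIw : IntervalIntegrable (fun t : ℝ => Real.log ‖w - t‖) volume 0 1 := by
    refine MeromorphicOn.intervalIntegrable_log_norm (f := fun t : ℝ => w - (t : ℂ)) ?_
    intro x _
    refine AnalyticAt.meromorphicAt (AnalyticAt.sub analyticAt_const ?_)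
    exact Complex.ofRealCLM.analyticAt x
  have hne : ∀ᵐ t : ℝ, t ≠ w.re := by
    rw [ae_iff]
    simp
  have h1 : segU a b z = ∫ t in (0 : ℝ)..1, (Real.log ‖b - a‖ + Real.log ‖w - t‖) := by
    unfold segU
    refine intervalIntegral.integral_congr_ae ?_
    filter_upwards [hne] with t ht _
    have h2 : z - sp a b t = (b - a) * (w - t) := by
      rw [hw]
      unfold sp
      field_simp
      ring
    have h3 : ‖w - t‖ ≠ 0 := by
      rw [norm_ne_zero_iff]
      intro h
      apply ht
      have := congrArg Complex.re h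
      simp only [Complex.sub_re, Complex.ofReal_re, Complex.zero_re] at this
      linarith
    rw [h2, norm_mul, Real.log_mul hL.ne' h3]
  rw [h1, intervalIntegral.integral_add intervalIntegrable_const hIw,
    integral_log_norm_sub, intervalIntegral.integral_const]
  simp only [sub_zero, smul_eq_mul, one_mul]
  ring

end Vale.Agent.P030.H905
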